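import Mathlib
import Vale.Agent.H68.P252.ScalarG

/-! ROW E-BRACKET: the bracket of the affine maximal operator for the entire graph
`h = sqrt (Y² + 2 Ψ(s)²)` vanishes (pure real algebra; no calculus). Notation as in
`Vale/Agent/H68/P252/ScalarG.lean`: `Ψ, P, P₂` stand for `Ψ, Ψ', Ψ''` at a point `s`, and
`V, V₁, V₂` for `V, V', V''`; `h1`, `h2` are the profile equations `Eq1G k`, `Eq2G k`;
`h > 0` with `h² = Y² + 2Ψ²` is the value of the entire function. -/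

namespace Vale.Agent.H69.Ent

open Vale.Agent.H68.Prof

/-- The algebraic identity: the entire bracket (closed-form inverse entries, `Y²` replaced by
`h² - 2Ψ²`) is `h^(k+5)` times the half-space bracket at `y = 1`; `G, G₁, G₂` are atoms. -/
theorem ebr_ident (k : ℕ) (s h Ψ P P₂ G G₁ G₂ : ℝ) (hh : h ≠ 0) (hΨ : Ψ ≠ 0) (hP : P ≠ 0)
    (hR : P + 2 * s * P₂ ≠ 0)
    (q α' β' bb c' αw βw cw a1 b1 bb1 c1 aw1 bw1 bbw1 cw1 : ℝ)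
    (hq : q = 2 * s)
    (eα' : α' = h / (2 * Ψ * P))
    (eβ' : β' = -(P₂ * h) / (2 * Ψ * P * (P + 2 * s * P₂)))
    (ebb : bb = P * h * ((k : ℝ) + 4) * (h ^ 2 - 2 * Ψ ^ 2) * h ^ k
        * (G₁ * h ^ 2 + ((k : ℝ) + 2) * G * (2 * Ψ * P)) / (2 * Ψ ^ 2 * (P + 2 * s * P₂)))
    (ec' : c' = h * (h ^ 2 * (Ψ * (P + 2 * s * P₂) + 2 * s * P ^ 2) - 4 * s * Ψ ^ 2 * P ^ 2)
        / (2 * Ψ ^ 3 * (P + 2 * s * P₂)))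
    (hαw : αw = h ^ (k + 2) * (G₁ * h ^ 2 + ((k : ℝ) + 4) * G * (2 * Ψ * P)))
    (hβw : βw = h ^ k * (G₂ * h ^ 4 + 2 * ((k : ℝ) + 4) * G₁ * h ^ 2 * (2 * Ψ * P)
        + ((k : ℝ) + 4) * G * (((k : ℝ) + 2) * (2 * Ψ * P) ^ 2
          + h ^ 2 * (2 * P ^ 2 + 2 * Ψ * P₂))))
    (hcw : cw = ((k : ℝ) + 4) * G * h ^ k * (h ^ 2 + ((k : ℝ) + 2) * (h ^ 2 - 2 * Ψ ^ 2)))
    (ha1 : a1 = 1 / (2 * Ψ * P))
    (hb1 : b1 = -(P₂ * 1) / (2 * Ψ * P * (P + 2 * s * P₂)))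
    (hbb1 : bb1 = P * 1 ^ 2 / (2 * Ψ ^ 2 * (P + 2 * s * P₂)))
    (hc1 : c1 = (Ψ * (P + 2 * s * P₂) + 2 * s * P ^ 2) * 1 ^ 3
      / (2 * Ψ ^ 3 * (P + 2 * s * P₂)))
    (haw1 : aw1 = G₁ * 1 ^ (k + 4)) (hbw1 : bw1 = G₂ * 1 ^ (k + 4))
    (hbbw1 : bbw1 = G₁ * (((k : ℝ) + 4) * 1 ^ (k + 3)))
    (hcw1 : cw1 = G * (((k : ℝ) + 4) * ((k : ℝ) + 3) * 1 ^ (k + 2))) :
    ((k : ℝ) + 2) * (α' * αw) + (α' * βw + β' * αw) * q + β' * βw * q ^ 2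
        + 2 * bb * q + c' * cw
      = h ^ k * h ^ 5 * (((k : ℝ) + 2) * (a1 * aw1) + (a1 * bw1 + b1 * aw1) * q
          + b1 * bw1 * q ^ 2 + 2 * bb1 * bbw1 * q + c1 * cw1) := by
  have hR2 : P + 2 * P₂ * s ≠ 0 := by
    intro h0
    apply hR
    linear_combination h0
  subst hq eα' eβ' ebb ec' hαw hβw hcw ha1 hb1 hbb1 hc1 haw1 hbw1 hbbw1 hcw1
  simp only [one_pow, mul_one]
  rw [pow_add h k 2]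
  generalize h ^ k = B
  generalize (k : ℝ) = κ
  field_simp
  ring

/-- The bracket of the affine maximal operator of the entire graph vanishes, by `Eq1G k` and
`Eq2G k`. Here `(α, β, b, c)` are the entries of `D²h`, `(α', β', b', c')` those of its
inverse, `(αw, βw, bw, cw)` those of `D²ω` for `ω = G(s) h^(k+4)`, and `q = 2s`.
Route: the left-hand side equals `h^(k+5)` times the left-hand side of `scalar_bracketG` at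
`y = 1` (a pure algebraic identity, using only `h² = Y² + 2Ψ²`), which vanishes. -/
theorem scalE_bracket (k : ℕ) (s Y h Ψ P P₂ V V₁ V₂ : ℝ) (hh : 0 < h)
    (hT : h ^ 2 = Y ^ 2 + 2 * Ψ ^ 2) (hΨ : 0 < Ψ) (hP : 0 < P) (hV : 0 < V)
    (h1 : P ^ (k + 1) * (P + 2 * s * P₂) * V ^ (k + 5) = Ψ)
    (h2 : 2 * s * P ^ k * V ^ (k + 3) *
          (((k : ℝ) + 1) * P₂ * V * V₁ + ((k : ℝ) + 3) * P * V₁ ^ 2 + P * V * V₂)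
        + ((k : ℝ) + 2) * P ^ (k + 1) * V ^ (k + 4) * V₁ + 1 = 0)
    (Φ Φ₁ Φ₂ G G₁ G₂ α β b c q Δ α' β' b' c' αw βw bw cw : ℝ)
    (hΦ : Φ = Ψ ^ 2) (hΦ₁ : Φ₁ = 2 * Ψ * P) (hΦ₂ : Φ₂ = 2 * P ^ 2 + 2 * Ψ * P₂)
    (hG : G = (V / Ψ) ^ (k + 4))
    (hG₁ : G₁ = ((k : ℝ) + 4) * (V / Ψ) ^ (k + 3) * ((V₁ * Ψ - V * P) / Ψ ^ 2))
    (hG₂ : G₂ = ((k : ℝ) + 4) * ((k : ℝ) + 3) * (V / Ψ) ^ (k + 2)
          * ((V₁ * Ψ - V * P) / Ψ ^ 2) ^ 2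
        + ((k : ℝ) + 4) * (V / Ψ) ^ (k + 3)
          * ((V₂ * Ψ - V * P₂) / Ψ ^ 2 - 2 * P * (V₁ * Ψ - V * P) / Ψ ^ 3))
    (hα : α = Φ₁ / h) (hβ : β = Φ₂ / h - Φ₁ ^ 2 / h ^ 3) (hb : b = -(Y * Φ₁) / h ^ 3)
    (hc : c = 2 * Φ / h ^ 3)
    (hq : q = 2 * s) (hΔ : Δ = (α + β * q) * c - b ^ 2 * q)
    (hα' : α' = 1 / α) (hβ' : β' = (b ^ 2 - β * c) / (α * Δ)) (hb' : b' = -b / Δ)
    (hc' : c' = (α + β * q) / Δ)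
    (hαw : αw = h ^ (k + 2) * (G₁ * h ^ 2 + ((k : ℝ) + 4) * G * Φ₁))
    (hβw : βw = h ^ k * (G₂ * h ^ 4 + 2 * ((k : ℝ) + 4) * G₁ * h ^ 2 * Φ₁
        + ((k : ℝ) + 4) * G * (((k : ℝ) + 2) * Φ₁ ^ 2 + h ^ 2 * Φ₂)))
    (hbw : bw = ((k : ℝ) + 4) * Y * h ^ k * (G₁ * h ^ 2 + ((k : ℝ) + 2) * G * Φ₁))
    (hcw : cw = ((k : ℝ) + 4) * G * h ^ k * (h ^ 2 + ((k : ℝ) + 2) * Y ^ 2)) :
    ((k : ℝ) + 2) * (α' * αw) + (α' * βw + β' * αw) * q + β' * βw * q ^ 2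
      + 2 * b' * bw * q + c' * cw = 0 := by
  have hh' : h ≠ 0 := hh.ne'
  have hΨ' : Ψ ≠ 0 := hΨ.ne'
  have hP' : P ≠ 0 := hP.ne'
  have hR : 0 < P + 2 * s * P₂ := ascalarG_R_pos k s Ψ P P₂ V hΨ hP hV h1
  have hR' : P + 2 * s * P₂ ≠ 0 := hR.ne'
  have hK := ascalarG_K k s Ψ P P₂ V V₁ V₂ hP hV h1 h2
  have hY2 : Y ^ 2 = h ^ 2 - 2 * Ψ ^ 2 := by linarith
  -- the square of the mixed entry, with `Y²` eliminated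
  have hb2 : b ^ 2 = (h ^ 2 - 2 * Ψ ^ 2) * Φ₁ ^ 2 / h ^ 6 := by
    rw [hb, ← hY2]
    field_simp
  -- the Schur quantity
  have hΔ2 : Δ = 4 * Ψ ^ 3 * (P + 2 * s * P₂) / h ^ 4 := by
    rw [hΔ, hb2, hα, hβ, hc, hq, hΦ, hΦ₁, hΦ₂]
    field_simp
    ring
  -- the inverse entries in closed form
  have eα' : α' = h / (2 * Ψ * P) := by
    rw [hα', hα, hΦ₁]
    field_simp
  have eβ' : β' = -(P₂ * h) / (2 * Ψ * P * (P + 2 * s * P₂)) := by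
    rw [hβ', hΔ2, hb2, hα, hβ, hc, hΦ, hΦ₁, hΦ₂]
    field_simp
    ring
  have ebb : b' * bw = P * h * ((k : ℝ) + 4) * (h ^ 2 - 2 * Ψ ^ 2) * h ^ k
        * (G₁ * h ^ 2 + ((k : ℝ) + 2) * G * (2 * Ψ * P)) / (2 * Ψ ^ 2 * (P + 2 * s * P₂)) := by
    rw [hb', hΔ2, hb, hbw, hΦ₁, ← hY2]
    field_simp
    ring
  have ec' : c' = h * (h ^ 2 * (Ψ * (P + 2 * s * P₂) + 2 * s * P ^ 2) - 4 * s * Ψ ^ 2 * P ^ 2)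
        / (2 * Ψ ^ 3 * (P + 2 * s * P₂)) := by
    rw [hc', hΔ2, hα, hβ, hq, hΦ₁, hΦ₂]
    field_simp
    ring
  have hαw' : αw = h ^ (k + 2) * (G₁ * h ^ 2 + ((k : ℝ) + 4) * G * (2 * Ψ * P)) := by
    rw [hαw, hΦ₁]
  have hβw' : βw = h ^ k * (G₂ * h ^ 4 + 2 * ((k : ℝ) + 4) * G₁ * h ^ 2 * (2 * Ψ * P)
        + ((k : ℝ) + 4) * G * (((k : ℝ) + 2) * (2 * Ψ * P) ^ 2
          + h ^ 2 * (2 * P ^ 2 + 2 * Ψ * P₂))) := by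
    rw [hβw, hΦ₁, hΦ₂]
  have hcw' : cw = ((k : ℝ) + 4) * G * h ^ k * (h ^ 2 + ((k : ℝ) + 2) * (h ^ 2 - 2 * Ψ ^ 2)) := by
    rw [hcw, hY2]
  -- the half-space bracket at `y = 1` vanishes
  have hBH := ascalarG_closed k s 1 Ψ P P₂ V V₁ V₂ hΨ' hP' hR' G G₁ G₂ q
    (1 / (2 * Ψ * P)) (-(P₂ * 1) / (2 * Ψ * P * (P + 2 * s * P₂)))
    (P * 1 ^ 2 / (2 * Ψ ^ 2 * (P + 2 * s * P₂)))
    ((Ψ * (P + 2 * s * P₂) + 2 * s * P ^ 2) * 1 ^ 3 / (2 * Ψ ^ 3 * (P + 2 * s * P₂)))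
    (G₁ * 1 ^ (k + 4)) (G₂ * 1 ^ (k + 4)) (G₁ * (((k : ℝ) + 4) * 1 ^ (k + 3)))
    (G * (((k : ℝ) + 4) * ((k : ℝ) + 3) * 1 ^ (k + 2)))
    hG hG₁ hG₂ hq rfl rfl rfl rfl rfl rfl rfl rfl
  rw [hK, mul_zero, zero_div] at hBH
  have e2 : 2 * b' * bw * q = 2 * (b' * bw) * q := by ring
  rw [e2, ebr_ident k s h Ψ P P₂ G G₁ G₂ hh' hΨ' hP' hR' q α' β' (b' * bw) c' αw βw cw
    (1 / (2 * Ψ * P)) (-(P₂ * 1) / (2 * Ψ * P * (P + 2 * s * P₂)))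
    (P * 1 ^ 2 / (2 * Ψ ^ 2 * (P + 2 * s * P₂)))
    ((Ψ * (P + 2 * s * P₂) + 2 * s * P ^ 2) * 1 ^ 3 / (2 * Ψ ^ 3 * (P + 2 * s * P₂)))
    (G₁ * 1 ^ (k + 4)) (G₂ * 1 ^ (k + 4)) (G₁ * (((k : ℝ) + 4) * 1 ^ (k + 3)))
    (G * (((k : ℝ) + 4) * ((k : ℝ) + 3) * 1 ^ (k + 2)))
    hq eα' eβ' ebb ec' hαw' hβw' hcw' rfl rfl rfl rfl rfl rfl rfl rfl, hBH, mul_zero]

end Vale.Agent.H69.Ent
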