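import Mathlib
import Vale.Agent.H68.AMDefs

/-! ROW E-CALC: calculus of the coordinate derivatives `pd` and of the Hessian `hess`
(iterated `lineDeriv` along the coordinate vectors, `Vale/Agent/H68/AMDefs.lean`) for functions
on `Fin n → ℝ` that are differentiable, respectively twice continuously differentiable, at a
point: sums, constant multiples, products and compositions `φ ∘ F` with `φ : ℝ → ℝ`. -/

namespace Vale.Agent.H69.Ent

open Vale.Agent.H68

variable {n : ℕ}

/-- The coordinate derivative only depends on the germ of the function. -/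
theorem pd_congr {F G : (Fin n → ℝ) → ℝ} {x : Fin n → ℝ} (h : F =ᶠ[nhds x] G) (i : Fin n) :
    pd i F x = pd i G x := by
  unfold pd
  exact h.lineDeriv_eq

/-- The Hessian only depends on the germ of the function. -/
theorem hess_congr {F G : (Fin n → ℝ) → ℝ} {x : Fin n → ℝ} (h : F =ᶠ[nhds x] G) :
    hess F x = hess G x := by
  unfold hess
  ext i j
  simp only [Matrix.of_apply]
  refine pd_congr ?_ i
  filter_upwards [h.eventuallyEq_nhds] with y hy
  exact pd_congr hy j

/-- For a differentiable function, `pd` is the Fréchet derivative applied to a basis vector. -/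
theorem pd_eq_fderiv {F : (Fin n → ℝ) → ℝ} {x : Fin n → ℝ} (hF : DifferentiableAt ℝ F x)
    (i : Fin n) : pd i F x = fderiv ℝ F x (Pi.single i 1) := by
  unfold pd
  exact hF.lineDeriv_eq_fderiv

theorem pd_add {F G : (Fin n → ℝ) → ℝ} {x : Fin n → ℝ} (hF : DifferentiableAt ℝ F x)
    (hG : DifferentiableAt ℝ G x) (i : Fin n) :
    pd i (fun z => F z + G z) x = pd i F x + pd i G x := by
  have hs : HasFDerivAt (fun z => F z + G z) (fderiv ℝ F x + fderiv ℝ G x) x :=
    hF.hasFDerivAt.add hG.hasFDerivAt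
  rw [pd_eq_fderiv hs.differentiableAt, pd_eq_fderiv hF, pd_eq_fderiv hG, hs.fderiv]
  rfl

theorem pd_const_mul (r : ℝ) {F : (Fin n → ℝ) → ℝ} {x : Fin n → ℝ}
    (hF : DifferentiableAt ℝ F x) (i : Fin n) :
    pd i (fun z => r * F z) x = r * pd i F x := by
  have hs : HasFDerivAt (fun z => r * F z) (r • fderiv ℝ F x) x :=
    hF.hasFDerivAt.const_mul r
  rw [pd_eq_fderiv hs.differentiableAt, pd_eq_fderiv hF, hs.fderiv]
  rfl

theorem pd_mul {F G : (Fin n → ℝ) → ℝ} {x : Fin n → ℝ} (hF : DifferentiableAt ℝ F x)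
    (hG : DifferentiableAt ℝ G x) (i : Fin n) :
    pd i (fun z => F z * G z) x = pd i F x * G x + F x * pd i G x := by
  have hs : HasFDerivAt (fun z => F z * G z) (F x • fderiv ℝ G x + G x • fderiv ℝ F x) x :=
    hF.hasFDerivAt.mul hG.hasFDerivAt
  rw [pd_eq_fderiv hs.differentiableAt, pd_eq_fderiv hF, pd_eq_fderiv hG, hs.fderiv]
  simp only [add_apply, smul_apply, smul_eq_mul]
  ring

theorem pd_comp {φ : ℝ → ℝ} {F : (Fin n → ℝ) → ℝ} {x : Fin n → ℝ}
    (hφ : DifferentiableAt ℝ φ (F x)) (hF : DifferentiableAt ℝ F x) (i : Fin n) :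
    pd i (fun z => φ (F z)) x = deriv φ (F x) * pd i F x := by
  have hc : HasFDerivAt (fun z => φ (F z)) (deriv φ (F x) • fderiv ℝ F x) x :=
    hφ.hasDerivAt.comp_hasFDerivAt x hF.hasFDerivAt
  rw [pd_eq_fderiv hc.differentiableAt, pd_eq_fderiv hF, hc.fderiv]
  rfl

/-- near a point of twice continuous differentiability, `pd` is the Fréchet derivative -/
theorem ecalc_pd_eventually {F : (Fin n → ℝ) → ℝ} {x : Fin n → ℝ} (hF : ContDiffAt ℝ 2 F x)
    (j : Fin n) : pd j F =ᶠ[nhds x] fun y => fderiv ℝ F y (Pi.single j 1) := by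
  have h2 : ∀ᶠ y in nhds x, ContDiffAt ℝ 2 F y := hF.eventually (by simp)
  filter_upwards [h2] with y hy
  exact pd_eq_fderiv (hy.differentiableAt (by norm_num)) j

/-- near a point of twice continuous differentiability the function is differentiable -/
theorem ecalc_diff_eventually {F : (Fin n → ℝ) → ℝ} {x : Fin n → ℝ} (hF : ContDiffAt ℝ 2 F x) :
    ∀ᶠ y in nhds x, DifferentiableAt ℝ F y := by
  have h2 : ∀ᶠ y in nhds x, ContDiffAt ℝ 2 F y := hF.eventually (by simp)
  filter_upwards [h2] with y hy
  exact hy.differentiableAt (by norm_num)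

/-- The first coordinate derivatives of a `C²` function are differentiable. -/
theorem differentiableAt_pd {F : (Fin n → ℝ) → ℝ} {x : Fin n → ℝ} (hF : ContDiffAt ℝ 2 F x)
    (j : Fin n) : DifferentiableAt ℝ (pd j F) x := by
  have h1 : ContDiffAt ℝ 1 (fderiv ℝ F) x := hF.fderiv_right (by norm_num)
  have h3 : DifferentiableAt ℝ (fderiv ℝ F) x := h1.differentiableAt (by norm_num)
  have h4 : DifferentiableAt ℝ (fun y => fderiv ℝ F y (Pi.single j 1)) x :=
    h3.clm_apply (differentiableAt_const _)
  exact h4.congr_of_eventuallyEq (ecalc_pd_eventually hF j)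

theorem hess_add {F G : (Fin n → ℝ) → ℝ} {x : Fin n → ℝ} (hF : ContDiffAt ℝ 2 F x)
    (hG : ContDiffAt ℝ 2 G x) :
    hess (fun z => F z + G z) x = hess F x + hess G x := by
  ext i j
  simp only [hess, Matrix.of_apply, Matrix.add_apply]
  have he : pd j (fun z => F z + G z) =ᶠ[nhds x] fun y => pd j F y + pd j G y := by
    filter_upwards [ecalc_diff_eventually hF, ecalc_diff_eventually hG] with y h1 h2
    exact pd_add h1 h2 j
  rw [pd_congr he i, pd_add (differentiableAt_pd hF j) (differentiableAt_pd hG j) i]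

theorem hess_const_mul (r : ℝ) {F : (Fin n → ℝ) → ℝ} {x : Fin n → ℝ}
    (hF : ContDiffAt ℝ 2 F x) :
    hess (fun z => r * F z) x = r • hess F x := by
  ext i j
  simp only [hess, Matrix.of_apply, Matrix.smul_apply, smul_eq_mul]
  have he : pd j (fun z => r * F z) =ᶠ[nhds x] fun y => r * pd j F y := by
    filter_upwards [ecalc_diff_eventually hF] with y h1
    exact pd_const_mul r h1 j
  rw [pd_congr he i, pd_const_mul r (differentiableAt_pd hF j) i]

theorem hess_mul {F G : (Fin n → ℝ) → ℝ} {x : Fin n → ℝ} (hF : ContDiffAt ℝ 2 F x)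
    (hG : ContDiffAt ℝ 2 G x) :
    hess (fun z => F z * G z) x =
      F x • hess G x + G x • hess F x
        + Matrix.of (fun i j => pd i F x * pd j G x + pd i G x * pd j F x) := by
  ext i j
  simp only [hess, Matrix.of_apply, Matrix.add_apply, Matrix.smul_apply, smul_eq_mul]
  have he : pd j (fun z => F z * G z) =ᶠ[nhds x] fun y => pd j F y * G y + F y * pd j G y := by
    filter_upwards [ecalc_diff_eventually hF, ecalc_diff_eventually hG] with y h1 h2
    exact pd_mul h1 h2 j
  have dF : DifferentiableAt ℝ F x := hF.differentiableAt (by norm_num)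
  have dG : DifferentiableAt ℝ G x := hG.differentiableAt (by norm_num)
  have dpF := differentiableAt_pd hF j
  have dpG := differentiableAt_pd hG j
  have d1 : DifferentiableAt ℝ (fun y => pd j F y * G y) x := dpF.mul dG
  have d2 : DifferentiableAt ℝ (fun y => F y * pd j G y) x := dF.mul dpG
  rw [pd_congr he i, pd_add d1 d2 i, pd_mul dpF dG i, pd_mul dF dpG i]
  ring

/-- the derivative of a twice continuously differentiable function is differentiable -/
theorem ecalc_deriv_diff {φ : ℝ → ℝ} {t : ℝ} (hφ : ContDiffAt ℝ 2 φ t) :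
    DifferentiableAt ℝ (deriv φ) t := by
  have h1 : ContDiffAt ℝ 1 (fderiv ℝ φ) t := hφ.fderiv_right (by norm_num)
  have h3 : DifferentiableAt ℝ (fderiv ℝ φ) t := h1.differentiableAt (by norm_num)
  have h4 : DifferentiableAt ℝ (fun y => fderiv ℝ φ y 1) t :=
    h3.clm_apply (differentiableAt_const _)
  have e : deriv φ = fun y => fderiv ℝ φ y 1 := by
    funext y
    exact (fderiv_apply_one_eq_deriv).symm
  rw [e]
  exact h4

/-- near a point of twice continuous differentiability a function of one variable is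
differentiable -/
theorem ecalc_diff1_eventually {φ : ℝ → ℝ} {t : ℝ} (hφ : ContDiffAt ℝ 2 φ t) :
    ∀ᶠ y in nhds t, DifferentiableAt ℝ φ y := by
  have h2 : ∀ᶠ y in nhds t, ContDiffAt ℝ 2 φ y := hφ.eventually (by simp)
  filter_upwards [h2] with y hy
  exact hy.differentiableAt (by norm_num)

theorem hess_comp {φ : ℝ → ℝ} {F : (Fin n → ℝ) → ℝ} {x : Fin n → ℝ}
    (hφ : ContDiffAt ℝ 2 φ (F x)) (hF : ContDiffAt ℝ 2 F x) :
    hess (fun z => φ (F z)) x =
      deriv φ (F x) • hess F x
        + deriv (deriv φ) (F x) • Matrix.of (fun i j => pd i F x * pd j F x) := by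
  ext i j
  simp only [hess, Matrix.of_apply, Matrix.add_apply, Matrix.smul_apply, smul_eq_mul]
  have dF : DifferentiableAt ℝ F x := hF.differentiableAt (by norm_num)
  have hφev : ∀ᶠ y in nhds x, DifferentiableAt ℝ φ (F y) :=
    dF.continuousAt.eventually (ecalc_diff1_eventually hφ)
  have he : pd j (fun z => φ (F z)) =ᶠ[nhds x] fun y => deriv φ (F y) * pd j F y := by
    filter_upwards [ecalc_diff_eventually hF, hφev] with y h1 h2
    exact pd_comp h2 h1 j
  have dpF := differentiableAt_pd hF j
  have dd : DifferentiableAt ℝ (deriv φ) (F x) := ecalc_deriv_diff hφ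
  have dc : DifferentiableAt ℝ (fun y => deriv φ (F y)) x :=
    DifferentiableAt.comp x dd dF
  rw [pd_congr he i, pd_mul dc dpF i, pd_comp dd dF i]
  ring

end Vale.Agent.H69.Ent
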