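import Mathlib
import Vale.Agent.H68.AMDefs
import Vale.Agent.H68.P252.DefsG
import Vale.Agent.H68.P252.DefsGA

/-! Definitions for the entire-graph form of the P252 counterexample: the function
`h (x', Y) = sqrt (Y² + 2 Ψ(|x'|²/2)²)` on all of `ℝ^m × ℝ`. -/

namespace Vale.Agent.H69.Ent

open Vale.Agent.H68 Vale.Agent.H68.Prof

/-- `T (x', Y) = Y² + 2 Ψ(|x'|²/2)²`. -/
noncomputable def entT (Ψ : ℝ → ℝ) {m : ℕ} (x : Fin (m + 1) → ℝ) : ℝ :=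
  ycG x ^ 2 + 2 * Ψ (sqG x) ^ 2

/-- The entire function `h (x', Y) = sqrt (Y² + 2 Ψ(|x'|²/2)²)`. -/
noncomputable def entH (Ψ : ℝ → ℝ) {m : ℕ} (x : Fin (m + 1) → ℝ) : ℝ :=
  Real.sqrt (entT Ψ x)

/-- The function `ω = G(s) h^(k+4)` with `G = (V/Ψ)^(k+4)`; `w = c₀ ω`. -/
noncomputable def entW (k : ℕ) (Ψ V : ℝ → ℝ) (x : Fin (k + 2 + 1) → ℝ) : ℝ :=
  (V (sqG x) / Ψ (sqG x)) ^ (k + 4) * entH Ψ x ^ (k + 4)

/-- The statement of the entire-graph hand-in in dimension `n`: a smooth function on all of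
`ℝ^n` with positive definite Hessian everywhere that solves the affine maximal equation
everywhere and is not a polynomial of degree at most two. -/
def EntireAt (n : ℕ) : Prop :=
  ∃ u : (Fin n → ℝ) → ℝ, ContDiff ℝ ((⊤ : ℕ∞) : WithTop ℕ∞) u ∧
    (∀ x, (hess u x).PosDef) ∧ (∀ x, amOp u x = 0) ∧
    ¬ ∃ (A : Matrix (Fin n) (Fin n) ℝ) (b : Fin n → ℝ) (c : ℝ),
      ∀ x, u x = x ⬝ᵥ A.mulVec x + b ⬝ᵥ x + c

theorem sqG_nonneg {m : ℕ} (x : Fin (m + 1) → ℝ) : 0 ≤ sqG x := by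
  unfold sqG
  positivity

end Vale.Agent.H69.Ent
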