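import Mathlib

/-! ROW E-ONEVAR: one-variable derivative facts used for the entire-graph form of the P252
counterexample: square root, natural powers, and `G = (V/Ψ)^(k+4)`. -/

namespace Vale.Agent.H69.Ent

theorem sqrt_c2 {t : ℝ} (ht : 0 < t) : ContDiffAt ℝ 2 Real.sqrt t :=
  Real.contDiffAt_sqrt ht.ne'

theorem deriv_sqrt_pos {t : ℝ} (ht : 0 < t) : deriv Real.sqrt t = 1 / (2 * Real.sqrt t) :=
  (Real.hasDerivAt_sqrt ht.ne').deriv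

theorem deriv2_sqrt_pos {t : ℝ} (ht : 0 < t) :
    deriv (deriv Real.sqrt) t = -1 / (4 * t * Real.sqrt t) := by
  have h1 : deriv Real.sqrt =ᶠ[nhds t] fun u => 1 / (2 * Real.sqrt u) := by
    filter_upwards [lt_mem_nhds ht] with u hu
    exact deriv_sqrt_pos hu
  rw [h1.deriv_eq]
  have hs := Real.hasDerivAt_sqrt ht.ne'
  have hst : 0 < Real.sqrt t := Real.sqrt_pos.mpr ht
  have h3 : HasDerivAt (fun u => (2 * Real.sqrt u)⁻¹)
      (-(2 * (1 / (2 * Real.sqrt t))) / (2 * Real.sqrt t) ^ 2) t :=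
    (hs.const_mul 2).fun_inv (by positivity : 2 * Real.sqrt t ≠ 0)
  have hfun : (fun u => 1 / (2 * Real.sqrt u)) = (fun u => (2 * Real.sqrt u)⁻¹) := by
    funext u
    rw [one_div]
  have e : Real.sqrt t * Real.sqrt t = t := Real.mul_self_sqrt ht.le
  have h2 : HasDerivAt (fun u => 1 / (2 * Real.sqrt u)) (-1 / (4 * t * Real.sqrt t)) t := by
    rw [hfun]
    refine h3.congr_deriv ?_
    field_simp
    linear_combination (4 : ℝ) * e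
  exact h2.deriv

theorem pow_c2 (N : ℕ) (t : ℝ) : ContDiffAt ℝ 2 (fun u : ℝ => u ^ N) t :=
  (contDiff_id.pow N).contDiffAt

theorem deriv_pow_succ (N : ℕ) (t : ℝ) :
    deriv (fun u : ℝ => u ^ (N + 1)) t = ((N : ℝ) + 1) * t ^ N := by
  rw [(hasDerivAt_pow (N + 1) t).deriv]
  simp

theorem deriv2_pow_succ (N : ℕ) (t : ℝ) :
    deriv (deriv (fun u : ℝ => u ^ (N + 2))) t = ((N : ℝ) + 2) * ((N : ℝ) + 1) * t ^ N := by
  have h1 : deriv (fun u : ℝ => u ^ (N + 2)) = fun u => ((N : ℝ) + 2) * u ^ (N + 1) := by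
    funext u
    rw [deriv_pow_succ (N + 1) u]
    push_cast
    ring
  rw [h1]
  have h2 : HasDerivAt (fun u : ℝ => ((N : ℝ) + 2) * u ^ (N + 1))
      (((N : ℝ) + 2) * (((N : ℝ) + 1) * t ^ N)) t := by
    have h : HasDerivAt (fun u : ℝ => ((N : ℝ) + 2) * u ^ (N + 1))
        (((N : ℝ) + 2) * (((N + 1 : ℕ) : ℝ) * t ^ (N + 1 - 1))) t :=
      (hasDerivAt_pow (N + 1) t).const_mul ((N : ℝ) + 2)
    refine h.congr_deriv ?_
    have e : N + 1 - 1 = N := rfl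
    rw [e]
    push_cast
    ring
  rw [h2.deriv]
  ring

/-- First derivative of `G = (V/Ψ)^(k+4)` at a point of differentiability with `Ψ ≠ 0`. -/
lemma eone_hasDerivAt (k : ℕ) {Ψ V : ℝ → ℝ} {y : ℝ} (hΨ : DifferentiableAt ℝ Ψ y)
    (hV : DifferentiableAt ℝ V y) (hpos : Ψ y ≠ 0) :
    HasDerivAt (fun t => (V t / Ψ t) ^ (k + 4))
      (((k : ℝ) + 4) * (V y / Ψ y) ^ (k + 3)
        * ((deriv V y * Ψ y - V y * deriv Ψ y) / Ψ y ^ 2)) y := by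
  have h : HasDerivAt (fun t => (V t / Ψ t) ^ (k + 4))
      (((k + 4 : ℕ) : ℝ) * (V y / Ψ y) ^ (k + 4 - 1)
        * ((deriv V y * Ψ y - V y * deriv Ψ y) / Ψ y ^ 2)) y :=
    (hV.hasDerivAt.fun_div hΨ.hasDerivAt hpos).fun_pow (k + 4)
  refine h.congr_deriv ?_
  have e : k + 4 - 1 = k + 3 := rfl
  rw [e]
  push_cast
  ring

lemma eone_two_le : (2 : WithTop ℕ∞) ≤ ((⊤ : ℕ∞) : WithTop ℕ∞) :=
  WithTop.coe_le_coe.2 le_top

/-- `G = (V/Ψ)^(k+4)` is `C²` near a point where `Ψ`, `V` are smooth and `Ψ > 0`. -/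
theorem gfun_c2 (k : ℕ) {Ψ V : ℝ → ℝ} {s : ℝ}
    (hΨ : ContDiffAt ℝ ((⊤ : ℕ∞) : WithTop ℕ∞) Ψ s)
    (hV : ContDiffAt ℝ ((⊤ : ℕ∞) : WithTop ℕ∞) V s) (hpos : 0 < Ψ s) :
    ContDiffAt ℝ 2 (fun t => (V t / Ψ t) ^ (k + 4)) s :=
  ((hV.of_le eone_two_le).div (hΨ.of_le eone_two_le) hpos.ne').pow (k + 4)

theorem gfun_deriv (k : ℕ) {Ψ V : ℝ → ℝ} {s : ℝ}
    (hΨ : ContDiffAt ℝ ((⊤ : ℕ∞) : WithTop ℕ∞) Ψ s)
    (hV : ContDiffAt ℝ ((⊤ : ℕ∞) : WithTop ℕ∞) V s) (hpos : 0 < Ψ s) :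
    deriv (fun t => (V t / Ψ t) ^ (k + 4)) s =
      ((k : ℝ) + 4) * (V s / Ψ s) ^ (k + 3)
        * ((deriv V s * Ψ s - V s * deriv Ψ s) / Ψ s ^ 2) :=
  (eone_hasDerivAt k ((hΨ.of_le eone_two_le).differentiableAt (by simp))
    ((hV.of_le eone_two_le).differentiableAt (by simp)) hpos.ne').deriv

theorem gfun_deriv2 (k : ℕ) {Ψ V : ℝ → ℝ} {s : ℝ}
    (hΨ : ContDiffAt ℝ ((⊤ : ℕ∞) : WithTop ℕ∞) Ψ s)
    (hV : ContDiffAt ℝ ((⊤ : ℕ∞) : WithTop ℕ∞) V s) (hpos : 0 < Ψ s) :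
    deriv (deriv (fun t => (V t / Ψ t) ^ (k + 4))) s =
      ((k : ℝ) + 4) * ((k : ℝ) + 3) * (V s / Ψ s) ^ (k + 2)
          * ((deriv V s * Ψ s - V s * deriv Ψ s) / Ψ s ^ 2) ^ 2
        + ((k : ℝ) + 4) * (V s / Ψ s) ^ (k + 3)
          * ((deriv (deriv V) s * Ψ s - V s * deriv (deriv Ψ) s) / Ψ s ^ 2
            - 2 * deriv Ψ s * (deriv V s * Ψ s - V s * deriv Ψ s) / Ψ s ^ 3) := by
  have hΨ2 : ContDiffAt ℝ 2 Ψ s := hΨ.of_le eone_two_le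
  have hV2 : ContDiffAt ℝ 2 V s := hV.of_le eone_two_le
  have evΨ : ∀ᶠ y in nhds s, ContDiffAt ℝ 2 Ψ y := hΨ2.eventually (by simp)
  have evV : ∀ᶠ y in nhds s, ContDiffAt ℝ 2 V y := hV2.eventually (by simp)
  have evpos : ∀ᶠ y in nhds s, 0 < Ψ y :=
    continuousAt_const.eventually_lt hΨ.continuousAt hpos
  have h1 : deriv (fun t => (V t / Ψ t) ^ (k + 4)) =ᶠ[nhds s] fun y =>
      ((k : ℝ) + 4) * (V y / Ψ y) ^ (k + 3)
        * ((deriv V y * Ψ y - V y * deriv Ψ y) / Ψ y ^ 2) := by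
    filter_upwards [evΨ, evV, evpos] with y a1 a2 a3
    exact (eone_hasDerivAt k (a1.differentiableAt (by simp)) (a2.differentiableAt (by simp))
      a3.ne').deriv
  rw [h1.deriv_eq]
  have hV0 : HasDerivAt V (deriv V s) s := (hV2.differentiableAt (by simp)).hasDerivAt
  have hΨ0 : HasDerivAt Ψ (deriv Ψ s) s := (hΨ2.differentiableAt (by simp)).hasDerivAt
  have hV1 : HasDerivAt (deriv V) (deriv (deriv V) s) s :=
    ((hV2.derivWithin (m := 1) (by norm_num)).differentiableAt (by simp)).hasDerivAt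
  have hΨ1 : HasDerivAt (deriv Ψ) (deriv (deriv Ψ) s) s :=
    ((hΨ2.derivWithin (m := 1) (by norm_num)).differentiableAt (by simp)).hasDerivAt
  have hne : Ψ s ≠ 0 := hpos.ne'
  have hq : HasDerivAt (fun y => (V y / Ψ y) ^ (k + 3))
      (((k + 3 : ℕ) : ℝ) * (V s / Ψ s) ^ (k + 3 - 1)
        * ((deriv V s * Ψ s - V s * deriv Ψ s) / Ψ s ^ 2)) s :=
    (hV0.fun_div hΨ0 hne).fun_pow (k + 3)
  have hN : HasDerivAt (fun y => deriv V y * Ψ y - V y * deriv Ψ y)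
      (deriv (deriv V) s * Ψ s + deriv V s * deriv Ψ s
        - (deriv V s * deriv Ψ s + V s * deriv (deriv Ψ) s)) s :=
    (hV1.fun_mul hΨ0).fun_sub (hV0.fun_mul hΨ1)
  have hP : HasDerivAt (fun y => Ψ y ^ 2) (((2 : ℕ) : ℝ) * Ψ s ^ (2 - 1) * deriv Ψ s) s :=
    hΨ0.fun_pow 2
  have hD : HasDerivAt (fun y => (deriv V y * Ψ y - V y * deriv Ψ y) / Ψ y ^ 2)
      (((deriv (deriv V) s * Ψ s + deriv V s * deriv Ψ s
            - (deriv V s * deriv Ψ s + V s * deriv (deriv Ψ) s)) * Ψ s ^ 2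
          - (deriv V s * Ψ s - V s * deriv Ψ s) * (((2 : ℕ) : ℝ) * Ψ s ^ (2 - 1) * deriv Ψ s))
        / (Ψ s ^ 2) ^ 2) s :=
    hN.fun_div hP (pow_ne_zero 2 hne)
  have hF := (hq.const_mul ((k : ℝ) + 4)).fun_mul hD
  have hfun : HasDerivAt (fun y => ((k : ℝ) + 4) * (V y / Ψ y) ^ (k + 3)
        * ((deriv V y * Ψ y - V y * deriv Ψ y) / Ψ y ^ 2))
      (((k : ℝ) + 4) * ((k : ℝ) + 3) * (V s / Ψ s) ^ (k + 2)
          * ((deriv V s * Ψ s - V s * deriv Ψ s) / Ψ s ^ 2) ^ 2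
        + ((k : ℝ) + 4) * (V s / Ψ s) ^ (k + 3)
          * ((deriv (deriv V) s * Ψ s - V s * deriv (deriv Ψ) s) / Ψ s ^ 2
            - 2 * deriv Ψ s * (deriv V s * Ψ s - V s * deriv Ψ s) / Ψ s ^ 3)) s := by
    refine hF.congr_deriv ?_
    have e : k + 3 - 1 = k + 2 := rfl
    rw [e]
    push_cast
    field_simp
    ring
  exact hfun.deriv

end Vale.Agent.H69.Ent
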