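import Mathlib
import Vale.Agent.H68.AMDefs
import Vale.Agent.H68.P252.BMatDefs
import Vale.Agent.H68.P252.DefsGA
import Vale.Agent.H69.P252E.Calc

/-! ROW E-RAD: functions on `ℝ^m × ℝ = Fin (m + 1) → ℝ` whose gradient at `x = (x', y)` has the
form `(gs • x', gY)` and whose Hessian at `x` is a structured matrix `bmat x' α β b c`
(`Vale/Agent/H68/P252/BMatDefs.lean`). This class contains `sqG` (`|x'|²/2`) and `ycG` (`y`) and
is closed under sums, constant multiples, products and compositions `φ ∘ F`. -/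

namespace Vale.Agent.H69.Ent

open Vale.Agent.H68 Vale.Agent.H68.Prof

variable {m : ℕ}

/-- `F` is twice continuously differentiable at `x`, its gradient at `x` is `(gs • x', gY)` and
its Hessian at `x` is `bmat x' α β b c`. -/
structure RadAt (F : (Fin (m + 1) → ℝ) → ℝ) (x : Fin (m + 1) → ℝ) (gs gY α β b c : ℝ) :
    Prop where
  smooth : ContDiffAt ℝ 2 F x
  grad_s : ∀ j : Fin m, pd (Fin.castSucc j) F x = gs * x (Fin.castSucc j)
  grad_y : pd (Fin.last m) F x = gY
  hess_eq : hess F x = bmat (xpG x) α β b c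

theorem RadAt.congr {F : (Fin (m + 1) → ℝ) → ℝ} {x : Fin (m + 1) → ℝ}
    {gs gY α β b c gs' gY' α' β' b' c' : ℝ} (h : RadAt F x gs gY α β b c)
    (h1 : gs = gs') (h2 : gY = gY') (h3 : α = α') (h4 : β = β') (h5 : b = b') (h6 : c = c') :
    RadAt F x gs' gY' α' β' b' c' := by
  subst h1 h2 h3 h4 h5 h6
  exact h

/-- The derivative of a coordinate function along a vector. -/
theorem erad_line_coord (k : Fin (m + 1)) (x v : Fin (m + 1) → ℝ) :
    HasLineDerivAt ℝ (fun y : Fin (m + 1) → ℝ => y k) (v k) x v := by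
  unfold HasLineDerivAt
  have h1 : HasDerivAt (fun t : ℝ => x k + t * v k) (v k) 0 := by
    simpa using ((hasDerivAt_id (0 : ℝ)).mul_const (v k)).const_add (x k)
  exact h1

/-- The coordinate derivative of a coordinate function. -/
theorem erad_pd_coord (i k : Fin (m + 1)) (x : Fin (m + 1) → ℝ) :
    pd i (fun y : Fin (m + 1) → ℝ => y k) x = (Pi.single i (1 : ℝ) : Fin (m + 1) → ℝ) k :=
  (erad_line_coord k x (Pi.single i 1)).lineDeriv

/-- The coordinate derivative of a constant function. -/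
theorem erad_pd_const (i : Fin (m + 1)) (r : ℝ) (x : Fin (m + 1) → ℝ) :
    pd i (fun _ : Fin (m + 1) → ℝ => r) x = 0 := by
  unfold pd
  apply HasLineDerivAt.lineDeriv
  unfold HasLineDerivAt
  exact hasDerivAt_const (0 : ℝ) r

/-- The derivative of `sqG` along a vector, at every point. -/
theorem erad_line_sqG (y v : Fin (m + 1) → ℝ) :
    HasLineDerivAt ℝ (sqG (m := m)) (∑ k : Fin m, y (Fin.castSucc k) * v (Fin.castSucc k))
      y v := by
  unfold HasLineDerivAt
  have h : ∀ k ∈ (Finset.univ : Finset (Fin m)),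
      HasDerivAt (fun t : ℝ => (y (Fin.castSucc k) + t * v (Fin.castSucc k)) ^ 2)
        (2 * (y (Fin.castSucc k) * v (Fin.castSucc k))) 0 := by
    intro k _
    have h1 : HasDerivAt (fun t : ℝ => y (Fin.castSucc k) + t * v (Fin.castSucc k))
        (v (Fin.castSucc k)) 0 := by
      simpa using ((hasDerivAt_id (0 : ℝ)).mul_const (v (Fin.castSucc k))).const_add
        (y (Fin.castSucc k))
    have h2 : HasDerivAt (fun t : ℝ => (y (Fin.castSucc k) + t * v (Fin.castSucc k)) ^ 2)
        (2 * y (Fin.castSucc k) * v (Fin.castSucc k)) 0 := by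
      have h2' := h1.pow 2
      simp only [zero_mul, add_zero, Nat.cast_ofNat, Nat.add_one_sub_one, pow_one] at h2'
      exact h2'
    rw [mul_assoc] at h2
    exact h2
  have h3 := (HasDerivAt.fun_sum h).div_const 2
  have e : (∑ k : Fin m, 2 * (y (Fin.castSucc k) * v (Fin.castSucc k))) / 2
      = ∑ k : Fin m, y (Fin.castSucc k) * v (Fin.castSucc k) := by
    rw [← Finset.mul_sum]
    ring
  rw [e] at h3
  exact h3

/-- The coordinate derivatives of `sqG` at every point. -/
theorem erad_pd_sqG (i : Fin (m + 1)) (y : Fin (m + 1) → ℝ) :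
    pd i (sqG (m := m)) y = ∑ k : Fin m,
      y (Fin.castSucc k) * (Pi.single i (1 : ℝ) : Fin (m + 1) → ℝ) (Fin.castSucc k) :=
  (erad_line_sqG y (Pi.single i 1)).lineDeriv

theorem erad_pd_sqG_castSucc (j : Fin m) :
    pd (Fin.castSucc j) (sqG (m := m)) = fun y => y (Fin.castSucc j) := by
  funext y
  rw [erad_pd_sqG]
  simp [Pi.single_apply, Fin.castSucc_inj]

theorem erad_pd_sqG_last :
    pd (Fin.last m) (sqG (m := m)) = fun _ => (0 : ℝ) := by
  funext y
  rw [erad_pd_sqG]
  simp

theorem erad_pd_ycG (i : Fin (m + 1)) :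
    pd i (ycG (m := m)) = fun _ => (Pi.single i (1 : ℝ) : Fin (m + 1) → ℝ) (Fin.last m) := by
  funext y
  exact erad_pd_coord i (Fin.last m) y

theorem erad_two_ne : (2 : WithTop ℕ∞) ≠ 0 := by norm_num

theorem radAt_sqG (x : Fin (m + 1) → ℝ) : RadAt (sqG (m := m)) x 1 0 1 0 0 0 := by
  refine ⟨?_, ?_, ?_, ?_⟩
  · have hc : ContDiff ℝ 2 (sqG (m := m)) := by
      unfold sqG
      fun_prop
    exact hc.contDiffAt
  · intro j
    rw [erad_pd_sqG_castSucc, one_mul]
  · rw [erad_pd_sqG_last]
  · ext i j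
    unfold hess
    rw [Matrix.of_apply]
    refine Fin.lastCases ?_ (fun j' => ?_) j
    · rw [erad_pd_sqG_last, erad_pd_const]
      refine Fin.lastCases ?_ (fun i' => ?_) i
      · simp
      · simp
    · rw [erad_pd_sqG_castSucc, erad_pd_coord]
      refine Fin.lastCases ?_ (fun i' => ?_) i
      · simp
      · simp [Pi.single_apply, Fin.castSucc_inj, eq_comm]

theorem radAt_ycG (x : Fin (m + 1) → ℝ) : RadAt (ycG (m := m)) x 0 1 0 0 0 0 := by
  refine ⟨?_, ?_, ?_, ?_⟩
  · have hc : ContDiff ℝ 2 (ycG (m := m)) := by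
      unfold ycG
      fun_prop
    exact hc.contDiffAt
  · intro j
    rw [erad_pd_ycG]
    simp
  · rw [erad_pd_ycG]
    simp
  · ext i j
    unfold hess
    rw [Matrix.of_apply, erad_pd_ycG, erad_pd_const]
    refine Fin.lastCases ?_ (fun i' => ?_) i <;> refine Fin.lastCases ?_ (fun j' => ?_) j <;> simp

theorem RadAt.add {F G : (Fin (m + 1) → ℝ) → ℝ} {x : Fin (m + 1) → ℝ}
    {gs gY α β b c gs' gY' α' β' b' c' : ℝ}
    (hF : RadAt F x gs gY α β b c) (hG : RadAt G x gs' gY' α' β' b' c') :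
    RadAt (fun z => F z + G z) x (gs + gs') (gY + gY') (α + α') (β + β') (b + b') (c + c') := by
  have dF := hF.smooth.differentiableAt erad_two_ne
  have dG := hG.smooth.differentiableAt erad_two_ne
  refine ⟨hF.smooth.add hG.smooth, ?_, ?_, ?_⟩
  · intro j
    rw [pd_add dF dG, hF.grad_s, hG.grad_s]
    ring
  · rw [pd_add dF dG, hF.grad_y, hG.grad_y]
  · rw [hess_add hF.smooth hG.smooth, hF.hess_eq, hG.hess_eq]
    ext i j
    refine Fin.lastCases ?_ (fun i' => ?_) i <;> refine Fin.lastCases ?_ (fun j' => ?_) j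
    · simp [Matrix.add_apply]
    · simp [Matrix.add_apply]
      ring
    · simp [Matrix.add_apply]
      ring
    · simp only [Matrix.add_apply, bmat_castSucc_castSucc]
      split_ifs <;> ring

theorem RadAt.const_mul (r : ℝ) {F : (Fin (m + 1) → ℝ) → ℝ} {x : Fin (m + 1) → ℝ}
    {gs gY α β b c : ℝ} (hF : RadAt F x gs gY α β b c) :
    RadAt (fun z => r * F z) x (r * gs) (r * gY) (r * α) (r * β) (r * b) (r * c) := by
  have dF := hF.smooth.differentiableAt erad_two_ne
  refine ⟨contDiffAt_const.mul hF.smooth, ?_, ?_, ?_⟩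
  · intro j
    rw [pd_const_mul r dF, hF.grad_s]
    ring
  · rw [pd_const_mul r dF, hF.grad_y]
  · rw [hess_const_mul r hF.smooth, hF.hess_eq]
    ext i j
    refine Fin.lastCases ?_ (fun i' => ?_) i <;> refine Fin.lastCases ?_ (fun j' => ?_) j
    · simp [Matrix.smul_apply]
    · simp [Matrix.smul_apply]
      ring
    · simp [Matrix.smul_apply]
      ring
    · simp only [Matrix.smul_apply, bmat_castSucc_castSucc, smul_eq_mul]
      split_ifs <;> ring

theorem RadAt.mul {F G : (Fin (m + 1) → ℝ) → ℝ} {x : Fin (m + 1) → ℝ}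
    {gs gY α β b c gs' gY' α' β' b' c' : ℝ}
    (hF : RadAt F x gs gY α β b c) (hG : RadAt G x gs' gY' α' β' b' c') :
    RadAt (fun z => F z * G z) x (F x * gs' + G x * gs) (F x * gY' + G x * gY)
      (F x * α' + G x * α) (F x * β' + G x * β + 2 * gs * gs')
      (F x * b' + G x * b + (gs * gY' + gs' * gY)) (F x * c' + G x * c + 2 * gY * gY') := by
  have dF := hF.smooth.differentiableAt erad_two_ne
  have dG := hG.smooth.differentiableAt erad_two_ne
  refine ⟨hF.smooth.mul hG.smooth, ?_, ?_, ?_⟩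
  · intro j
    rw [pd_mul dF dG, hF.grad_s, hG.grad_s]
    ring
  · rw [pd_mul dF dG, hF.grad_y, hG.grad_y]
    ring
  · rw [hess_mul hF.smooth hG.smooth, hF.hess_eq, hG.hess_eq]
    ext i j
    refine Fin.lastCases ?_ (fun i' => ?_) i <;> refine Fin.lastCases ?_ (fun j' => ?_) j
    · simp only [Matrix.add_apply, Matrix.smul_apply, Matrix.of_apply, bmat_last_last,
        smul_eq_mul, hF.grad_y, hG.grad_y]
      ring
    · simp only [Matrix.add_apply, Matrix.smul_apply, Matrix.of_apply, bmat_last_castSucc,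
        smul_eq_mul, hF.grad_y, hG.grad_y, hF.grad_s, hG.grad_s, xpG]
      ring
    · simp only [Matrix.add_apply, Matrix.smul_apply, Matrix.of_apply, bmat_castSucc_last,
        smul_eq_mul, hF.grad_y, hG.grad_y, hF.grad_s, hG.grad_s, xpG]
      ring
    · simp only [Matrix.add_apply, Matrix.smul_apply, Matrix.of_apply, bmat_castSucc_castSucc,
        smul_eq_mul, hF.grad_s, hG.grad_s, xpG]
      split_ifs <;> ring

theorem RadAt.comp {φ : ℝ → ℝ} {F : (Fin (m + 1) → ℝ) → ℝ} {x : Fin (m + 1) → ℝ}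
    {gs gY α β b c : ℝ} (hφ : ContDiffAt ℝ 2 φ (F x)) (hF : RadAt F x gs gY α β b c) :
    RadAt (fun z => φ (F z)) x (deriv φ (F x) * gs) (deriv φ (F x) * gY)
      (deriv φ (F x) * α) (deriv φ (F x) * β + deriv (deriv φ) (F x) * gs ^ 2)
      (deriv φ (F x) * b + deriv (deriv φ) (F x) * (gs * gY))
      (deriv φ (F x) * c + deriv (deriv φ) (F x) * gY ^ 2) := by
  have dF := hF.smooth.differentiableAt erad_two_ne
  have dφ := hφ.differentiableAt erad_two_ne
  refine ⟨hφ.comp x hF.smooth, ?_, ?_, ?_⟩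
  · intro j
    rw [pd_comp dφ dF, hF.grad_s]
    ring
  · rw [pd_comp dφ dF, hF.grad_y]
  · rw [hess_comp hφ hF.smooth, hF.hess_eq]
    ext i j
    refine Fin.lastCases ?_ (fun i' => ?_) i <;> refine Fin.lastCases ?_ (fun j' => ?_) j
    · simp only [Matrix.add_apply, Matrix.smul_apply, Matrix.of_apply, bmat_last_last,
        smul_eq_mul, hF.grad_y]
      ring
    · simp only [Matrix.add_apply, Matrix.smul_apply, Matrix.of_apply, bmat_last_castSucc,
        smul_eq_mul, hF.grad_y, hF.grad_s, xpG]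
      ring
    · simp only [Matrix.add_apply, Matrix.smul_apply, Matrix.of_apply, bmat_castSucc_last,
        smul_eq_mul, hF.grad_y, hF.grad_s, xpG]
      ring
    · simp only [Matrix.add_apply, Matrix.smul_apply, Matrix.of_apply, bmat_castSucc_castSucc,
        smul_eq_mul, hF.grad_s, xpG]
      split_ifs <;> ring

end Vale.Agent.H69.Ent
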