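import Mathlib

/-! ROW E-SCAL: small scalar identities behind the affine maximal equation for the entire graph
`h = sqrt (Y² + 2 Ψ(s)²)` (pure real algebra; no calculus). Notation as in
`Vale/Agent/H68/P252/ScalarG.lean`: `Ψ, P, P₂` stand for `Ψ, Ψ', Ψ''` at a point `s`, and
`V, V₁, V₂` for `V, V', V''`; `h1`, `h2` are the profile equations `Eq1G k`, `Eq2G k`;
`h > 0` with `h² = Y² + 2Ψ²` is the value of the entire function. -/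

namespace Vale.Agent.H69.Ent

/-- The `(Y, Y)` entry of the Hessian of `h`. -/
theorem scalE_c (Y h Ψ : ℝ) (hh : 0 < h) (hT : h ^ 2 = Y ^ 2 + 2 * Ψ ^ 2) :
    1 / h - Y ^ 2 / h ^ 3 = 2 * Ψ ^ 2 / h ^ 3 := by
  have hh0 : h ≠ 0 := hh.ne'
  have hY : Y ^ 2 = h ^ 2 - 2 * Ψ ^ 2 := by linarith
  rw [hY]
  field_simp
  ring

/-- The Schur quantity of the Hessian of `h`: `(α + β q) c - b² q = 4 Ψ³ (P + 2 s P₂) / h⁴`. -/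
theorem scalE_delta (s Y h Ψ P P₂ : ℝ) (hh : 0 < h) (hT : h ^ 2 = Y ^ 2 + 2 * Ψ ^ 2) :
    ((2 * Ψ * P) / h
          + ((2 * P ^ 2 + 2 * Ψ * P₂) / h - (2 * Ψ * P) ^ 2 / h ^ 3) * (2 * s))
        * (2 * Ψ ^ 2 / h ^ 3)
        - (-(Y * (2 * Ψ * P)) / h ^ 3) ^ 2 * (2 * s)
      = 4 * Ψ ^ 3 * (P + 2 * s * P₂) / h ^ 4 := by
  have hh0 : h ≠ 0 := hh.ne'
  have hY : Y ^ 2 = h ^ 2 - 2 * Ψ ^ 2 := by linarith
  have e1 : (-(Y * (2 * Ψ * P)) / h ^ 3) ^ 2 = (h ^ 2 - 2 * Ψ ^ 2) * (2 * Ψ * P) ^ 2 / h ^ 6 := by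
    rw [div_pow, ← hY]
    ring
  rw [e1]
  field_simp
  ring

/-- Positivity of `α + β q` for the Hessian of `h`. -/
theorem scalE_pos (s Y h Ψ P P₂ : ℝ) (hs : 0 ≤ s) (hh : 0 < h)
    (hT : h ^ 2 = Y ^ 2 + 2 * Ψ ^ 2) (hΨ : 0 < Ψ) (hP : 0 < P)
    (hR : 0 < P + 2 * s * P₂) :
    0 < (2 * Ψ * P) / h
          + ((2 * P ^ 2 + 2 * Ψ * P₂) / h - (2 * Ψ * P) ^ 2 / h ^ 3) * (2 * s) := by
  have hh0 : h ≠ 0 := hh.ne'
  have key : (2 * Ψ * P) / h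
          + ((2 * P ^ 2 + 2 * Ψ * P₂) / h - (2 * Ψ * P) ^ 2 / h ^ 3) * (2 * s)
      = ((2 * Ψ * (P + 2 * s * P₂) + 4 * s * P ^ 2) * Y ^ 2
          + 4 * Ψ ^ 3 * (P + 2 * s * P₂)) / h ^ 3 := by
    have hY : Y ^ 2 = h ^ 2 - 2 * Ψ ^ 2 := by linarith
    rw [hY]
    field_simp
    ring
  rw [key]
  apply div_pos _ (pow_pos hh 3)
  have h1 : 0 < 2 * Ψ * (P + 2 * s * P₂) + 4 * s * P ^ 2 := by
    have : 0 < 2 * Ψ * (P + 2 * s * P₂) := by positivity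
    have : 0 ≤ 4 * s * P ^ 2 := by positivity
    linarith
  have h2 : 0 ≤ (2 * Ψ * (P + 2 * s * P₂) + 4 * s * P ^ 2) * Y ^ 2 :=
    mul_nonneg h1.le (sq_nonneg Y)
  have h3 : 0 < 4 * Ψ ^ 3 * (P + 2 * s * P₂) := by positivity
  linarith

end Vale.Agent.H69.Ent
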