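import Mathlib
import Vale.Agent.H68.AMDefs
import Vale.Agent.H68.P252.BMatDefs
import Vale.Agent.H68.P252.DefsG
import Vale.Agent.H68.P252.DefsGA
import Vale.Agent.H69.P252E.Calc
import Vale.Agent.H69.P252E.Rad
import Vale.Agent.H69.P252E.OneVar
import Vale.Agent.H69.P252E.ScalE
import Vale.Agent.H69.P252E.EntDefs

/-! ROW E-HESS: gradient and Hessian of the entire function
`h (x', Y) = sqrt (Y² + 2 Ψ(|x'|²/2)²)` at every point, for a profile `Ψ`, `V` on the half line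
of all `s` with `-ε < s`. -/

namespace Vale.Agent.H69.Ent

open Vale.Agent.H68 Vale.Agent.H68.Prof

variable {k : ℕ} {ε : ℝ} {Ψ V : ℝ → ℝ}

theorem ehess_mem (hε : 0 < ε) {m : ℕ} (x : Fin (m + 1) → ℝ) : sqG x ∈ Set.Ioi (-ε) := by
  have h0 := sqG_nonneg x
  show -ε < sqG x
  linarith

theorem ehess_deriv_sq (t : ℝ) : deriv (fun u : ℝ => u ^ 2) t = 2 * t := by
  have h := deriv_pow_succ 1 t
  have e : ((1 : ℕ) : ℝ) + 1 = 2 := by norm_num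
  rw [e, pow_one] at h
  exact h

theorem ehess_deriv2_sq (t : ℝ) : deriv (deriv (fun u : ℝ => u ^ 2)) t = 2 := by
  have h := deriv2_pow_succ 0 t
  have e : (((0 : ℕ) : ℝ) + 2) * (((0 : ℕ) : ℝ) + 1) * t ^ 0 = 2 := by norm_num
  rw [e] at h
  exact h

theorem entT_pos (hε : 0 < ε) (h : IsProfileG k Ψ V (Set.Ioi (-ε))) {m : ℕ}
    (x : Fin (m + 1) → ℝ) : 0 < entT Ψ x := by
  have hΨ := h.posΨ _ (ehess_mem hε x)
  unfold entT
  positivity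

theorem entH_pos (hε : 0 < ε) (h : IsProfileG k Ψ V (Set.Ioi (-ε))) {m : ℕ}
    (x : Fin (m + 1) → ℝ) : 0 < entH Ψ x :=
  Real.sqrt_pos.mpr (entT_pos hε h x)

theorem entH_sq (hε : 0 < ε) (h : IsProfileG k Ψ V (Set.Ioi (-ε))) {m : ℕ}
    (x : Fin (m + 1) → ℝ) : entH Ψ x ^ 2 = ycG x ^ 2 + 2 * Ψ (sqG x) ^ 2 := by
  unfold entH
  rw [Real.sq_sqrt (entT_pos hε h x).le]
  rfl

/-- Gradient and Hessian of `T = Y² + 2 Ψ(s)²`. -/
theorem radAt_entT (hε : 0 < ε) (h : IsProfileG k Ψ V (Set.Ioi (-ε))) {m : ℕ}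
    (x : Fin (m + 1) → ℝ) :
    RadAt (entT Ψ) x
      (2 * (2 * Ψ (sqG x) * deriv Ψ (sqG x)))
      (2 * ycG x)
      (2 * (2 * Ψ (sqG x) * deriv Ψ (sqG x)))
      (2 * (2 * deriv Ψ (sqG x) ^ 2 + 2 * Ψ (sqG x) * deriv (deriv Ψ) (sqG x)))
      0 2 := by
  have hs := ehess_mem hε x
  have hΨc2 : ContDiffAt ℝ 2 Ψ (sqG x) :=
    (h.smoothΨ.contDiffAt (Ioi_mem_nhds hs)).of_le eone_two_le
  have hY2 := RadAt.comp (φ := fun u : ℝ => u ^ 2) (pow_c2 2 (ycG x)) (radAt_ycG x)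
  have hΨS := RadAt.comp hΨc2 (radAt_sqG x)
  have hΨS2 := RadAt.comp (φ := fun u : ℝ => u ^ 2) (pow_c2 2 (Ψ (sqG x))) hΨS
  have hT := RadAt.add hY2 (RadAt.const_mul 2 hΨS2)
  show RadAt (fun z => ycG z ^ 2 + 2 * Ψ (sqG z) ^ 2) x _ _ _ _ _ _
  refine hT.congr ?_ ?_ ?_ ?_ ?_ ?_
  · simp only [ehess_deriv_sq]
    ring
  · simp only [ehess_deriv_sq]
    ring
  · simp only [ehess_deriv_sq]
    ring
  · simp only [ehess_deriv_sq, ehess_deriv2_sq]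
    ring
  · simp only [ehess_deriv_sq, ehess_deriv2_sq]
    ring
  · simp only [ehess_deriv_sq, ehess_deriv2_sq]
    ring

/-- Gradient and Hessian of `h = sqrt T`. -/
theorem radAt_entH (hε : 0 < ε) (h : IsProfileG k Ψ V (Set.Ioi (-ε))) {m : ℕ}
    (x : Fin (m + 1) → ℝ) :
    RadAt (entH Ψ) x
      ((2 * Ψ (sqG x) * deriv Ψ (sqG x)) / entH Ψ x)
      (ycG x / entH Ψ x)
      ((2 * Ψ (sqG x) * deriv Ψ (sqG x)) / entH Ψ x)
      ((2 * deriv Ψ (sqG x) ^ 2 + 2 * Ψ (sqG x) * deriv (deriv Ψ) (sqG x)) / entH Ψ x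
        - (2 * Ψ (sqG x) * deriv Ψ (sqG x)) ^ 2 / entH Ψ x ^ 3)
      (-(ycG x * (2 * Ψ (sqG x) * deriv Ψ (sqG x))) / entH Ψ x ^ 3)
      (2 * Ψ (sqG x) ^ 2 / entH Ψ x ^ 3) := by
  have hTpos := entT_pos hε h x
  have hh := entH_pos hε h x
  have hsq := entH_sq hε h x
  have hsqrt : Real.sqrt (entT Ψ x) = entH Ψ x := rfl
  have hT2 : entT Ψ x = entH Ψ x ^ 2 := by
    rw [hsq]
    rfl
  have hc := RadAt.comp (φ := Real.sqrt) (sqrt_c2 hTpos) (radAt_entT hε h x)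
  rw [deriv_sqrt_pos hTpos, deriv2_sqrt_pos hTpos, hsqrt, hT2] at hc
  have hne : entH Ψ x ≠ 0 := hh.ne'
  show RadAt (fun z => Real.sqrt (entT Ψ z)) x _ _ _ _ _ _
  refine hc.congr ?_ ?_ ?_ ?_ ?_ ?_
  · field_simp
  · field_simp
  · field_simp
  · field_simp
    ring
  · field_simp
    ring
  · field_simp
    linarith

end Vale.Agent.H69.Ent
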