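import Mathlib
import Vale.Agent.H68.AMDefs
import Vale.Agent.H68.P252.BMatDefs
import Vale.Agent.H68.P252.BMatDet
import Vale.Agent.H68.P252.BMatPD
import Vale.Agent.H68.P252.DefsG
import Vale.Agent.H68.P252.DefsGA
import Vale.Agent.H68.P252.ScalarG
import Vale.Agent.H69.P252E.Rad
import Vale.Agent.H69.P252E.ScalE
import Vale.Agent.H69.P252E.EntDefs
import Vale.Agent.H69.P252E.EntHess

/-! ROW E-DET: determinant and positive definiteness of the Hessian of the entire function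
`h (x', Y) = sqrt (Y² + 2 Ψ(|x'|²/2)²)` in dimension `k + 3` (`x' ∈ ℝ^(k+2)`). -/

namespace Vale.Agent.H69.Ent

open Vale.Agent.H68 Vale.Agent.H68.Prof

variable {k : ℕ} {ε : ℝ} {Ψ V : ℝ → ℝ}

/-- `|x'|² = 2 s`. -/
theorem sum_xpG_sq {m : ℕ} (x : Fin (m + 1) → ℝ) : ∑ i, xpG x i ^ 2 = 2 * sqG x := by
  unfold xpG sqG
  ring

/-- Positivity of `P + 2 s P₂` from the first profile equation (pure algebra). -/
theorem edet_R_pos (k : ℕ) (s Ψ P P₂ V : ℝ) (hP : 0 < P) (hV : 0 < V) (hΨ : 0 < Ψ)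
    (h1 : P ^ (k + 1) * (P + 2 * s * P₂) * V ^ (k + 5) = Ψ) : 0 < P + 2 * s * P₂ := by
  by_contra hcon
  have hle : P + 2 * s * P₂ ≤ 0 := not_lt.mp hcon
  have h9 : 0 ≤ P ^ (k + 1) := (pow_pos hP (k + 1)).le
  have h13 : 0 ≤ V ^ (k + 5) := (pow_pos hV (k + 5)).le
  have h1n : P ^ (k + 1) * (P + 2 * s * P₂) * V ^ (k + 5) ≤ 0 :=
    mul_nonpos_of_nonpos_of_nonneg (mul_nonpos_of_nonneg_of_nonpos h9 hle) h13
  linarith

/-- The point `s = |x'|²/2` lies in the profile interval. -/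
theorem edet_mem (hε : 0 < ε) {m : ℕ} (x : Fin (m + 1) → ℝ) : sqG x ∈ Set.Ioi (-ε) := by
  have h0 := sqG_nonneg x
  exact Set.mem_Ioi.mpr (by linarith)

/-- `R = Ψ' + 2 s Ψ''` is positive along a profile (by `Eq1G`). -/
theorem profile_R_pos (hε : 0 < ε) (h : IsProfileG k Ψ V (Set.Ioi (-ε))) {s : ℝ}
    (hs : s ∈ Set.Ioi (-ε)) : 0 < deriv Ψ s + 2 * s * deriv (deriv Ψ) s := by
  have _ := hε
  have h1 := h.eq1 s hs
  unfold Eq1G at h1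
  exact edet_R_pos k s (Ψ s) (deriv Ψ s) (deriv (deriv Ψ) s) (V s) (h.posD s hs) (h.posV s hs)
    (h.posΨ s hs) h1

/-- `det D²h = 2^(k+3) (Ψ / (V h))^(k+5)`. -/
theorem det_hess_entH (hε : 0 < ε) (h : IsProfileG k Ψ V (Set.Ioi (-ε)))
    (x : Fin (k + 2 + 1) → ℝ) :
    (hess (entH Ψ) x).det
      = 2 ^ (k + 3) * (Ψ (sqG x) / (V (sqG x) * entH Ψ x)) ^ (k + 5) := by
  have hs : sqG x ∈ Set.Ioi (-ε) := edet_mem hε x
  have hΨ := h.posΨ _ hs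
  have hP := h.posD _ hs
  have hV := h.posV _ hs
  have hh := entH_pos hε h x
  have hT := entH_sq hε h x
  have h1 := h.eq1 _ hs
  unfold Eq1G at h1
  rw [(radAt_entH hε h x).hess_eq]
  have hα : (2 * Ψ (sqG x) * deriv Ψ (sqG x)) / entH Ψ x ≠ 0 := by positivity
  have hc : 2 * Ψ (sqG x) ^ 2 / entH Ψ x ^ 3 ≠ 0 := by positivity
  have hdet := bmat_det (n := k + 1) (xpG x)
    ((2 * Ψ (sqG x) * deriv Ψ (sqG x)) / entH Ψ x)
    ((2 * deriv Ψ (sqG x) ^ 2 + 2 * Ψ (sqG x) * deriv (deriv Ψ) (sqG x)) / entH Ψ x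
        - (2 * Ψ (sqG x) * deriv Ψ (sqG x)) ^ 2 / entH Ψ x ^ 3)
    (-(ycG x * (2 * Ψ (sqG x) * deriv Ψ (sqG x))) / entH Ψ x ^ 3)
    (2 * Ψ (sqG x) ^ 2 / entH Ψ x ^ 3) hα hc
  have hq : ∑ i : Fin (k + 1 + 1), xpG x i ^ 2 = 2 * sqG x := sum_xpG_sq x
  rw [hq, scalE_delta (sqG x) (ycG x) (entH Ψ x) (Ψ (sqG x)) (deriv Ψ (sqG x))
    (deriv (deriv Ψ) (sqG x)) hh hT] at hdet
  refine hdet.trans ?_
  exact scalar_detG k (sqG x) (entH Ψ x) (Ψ (sqG x)) (deriv Ψ (sqG x))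
    (deriv (deriv Ψ) (sqG x)) (V (sqG x)) hh hΨ hP hV h1

/-- `D²h` is positive definite everywhere. -/
theorem posDef_hess_entH (hε : 0 < ε) (h : IsProfileG k Ψ V (Set.Ioi (-ε)))
    (x : Fin (k + 2 + 1) → ℝ) : (hess (entH Ψ) x).PosDef := by
  have hs : sqG x ∈ Set.Ioi (-ε) := edet_mem hε x
  have hΨ := h.posΨ _ hs
  have hP := h.posD _ hs
  have hh := entH_pos hε h x
  have hT := entH_sq hε h x
  have hR := profile_R_pos hε h hs
  have hs0 := sqG_nonneg x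
  rw [(radAt_entH hε h x).hess_eq]
  have hq : ∑ i : Fin (k + 2), xpG x i ^ 2 = 2 * sqG x := sum_xpG_sq x
  have hpos := scalE_pos (sqG x) (ycG x) (entH Ψ x) (Ψ (sqG x)) (deriv Ψ (sqG x))
    (deriv (deriv Ψ) (sqG x)) hs0 hh hT hΨ hP hR
  have hdel := scalE_delta (sqG x) (ycG x) (entH Ψ x) (Ψ (sqG x)) (deriv Ψ (sqG x))
    (deriv (deriv Ψ) (sqG x)) hh hT
  apply bmat_posDef
  · positivity
  · rw [hq]
    exact hpos
  · rw [hq, hdel]
    positivity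

end Vale.Agent.H69.Ent
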