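import Mathlib
import Vale.Agent.H68.AMDefs
import Vale.Agent.H68.P252.DefsG
import Vale.Agent.H68.P252.DefsGA
import Vale.Agent.H69.P252E.EntDefs
import Vale.Agent.H69.P252E.EntHess
import Vale.Agent.H69.P252E.EntDet

/-! ROW E-AMW: the function `w = (det D²h)^(-(n+1)/(n+2))` (`n = k + 3`) of the entire function
`h` is `c₀ G(s) h^(k+4)` with `G = (V/Ψ)^(k+4)` and `c₀ = (2^(k+3))^(-(k+4)/(k+5))`. -/

namespace Vale.Agent.H69.Ent

open Vale.Agent.H68 Vale.Agent.H68.Prof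

variable {k : ℕ} {ε : ℝ} {Ψ V : ℝ → ℝ}

/-- For `x > 0`: `(x^(k+5))^(-(k+4)/(k+5)) = (x^(k+4))⁻¹`. -/
theorem eamw_rpow_aux (k : ℕ) {x : ℝ} (hx : 0 < x) :
    (x ^ (k + 5)) ^ (-((k : ℝ) + 4) / ((k : ℝ) + 5)) = (x ^ (k + 4))⁻¹ := by
  have hk5 : ((k : ℝ) + 5) ≠ 0 := by positivity
  have h1 : x ^ (k + 5) = x ^ (((k + 5 : ℕ) : ℝ)) := (Real.rpow_natCast x (k + 5)).symm
  rw [h1, ← Real.rpow_mul hx.le]
  have h2 : ((k + 5 : ℕ) : ℝ) * (-((k : ℝ) + 4) / ((k : ℝ) + 5)) = -(((k + 4 : ℕ) : ℝ)) := by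
    push_cast
    field_simp
  rw [h2, Real.rpow_neg hx.le, Real.rpow_natCast]

theorem amW_entH (hε : 0 < ε) (h : IsProfileG k Ψ V (Set.Ioi (-ε))) :
    amW (entH Ψ (m := k + 2))
      = fun z => ((2 : ℝ) ^ (k + 3)) ^ (-((k : ℝ) + 4) / ((k : ℝ) + 5)) * entW k Ψ V z := by
  funext z
  have hs : sqG z ∈ Set.Ioi (-ε) := by
    have := sqG_nonneg z
    simp only [Set.mem_Ioi]
    linarith
  have hΨ : 0 < Ψ (sqG z) := h.posΨ _ hs
  have hV : 0 < V (sqG z) := h.posV _ hs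
  have hh : 0 < entH Ψ z := entH_pos hε h z
  have hx : 0 < Ψ (sqG z) / (V (sqG z) * entH Ψ z) := by positivity
  have hexp : (-(((k + 2 + 1 : ℕ) : ℝ) + 1) / (((k + 2 + 1 : ℕ) : ℝ) + 2))
      = -((k : ℝ) + 4) / ((k : ℝ) + 5) := by
    push_cast
    ring_nf
  unfold amW
  rw [det_hess_entH hε h z, hexp,
    Real.mul_rpow (by positivity) (by positivity), eamw_rpow_aux k hx]
  unfold entW
  congr 1
  rw [div_pow, mul_pow, div_pow]
  field_simp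

end Vale.Agent.H69.Ent
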