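import Mathlib
import Vale.Agent.H68.AMDefs
import Vale.Agent.H68.P252.DefsGA
import Vale.Agent.H69.P252E.EntDefs

/-! ROW E-MISC: the entire function `h (x', Y) = sqrt (Y² + 2 Ψ(|x'|²/2)²)` is smooth on all of
`ℝ^m × ℝ` and is not a polynomial of degree at most two. -/

namespace Vale.Agent.H69.Ent

open Vale.Agent.H68 Vale.Agent.H68.Prof

/-- `sqG` is a smooth (polynomial) map. -/
lemma emisc_contDiff_sqG {m : ℕ} :
    ContDiff ℝ ((⊤ : ℕ∞) : WithTop ℕ∞) (sqG : (Fin (m + 1) → ℝ) → ℝ) := by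
  unfold sqG
  refine ContDiff.div_const ?_ 2
  refine ContDiff.sum fun i _ => ?_
  exact (contDiff_apply ℝ ℝ (Fin.castSucc i)).pow 2

/-- `ycG` is a smooth (linear) map. -/
lemma emisc_contDiff_ycG {m : ℕ} :
    ContDiff ℝ ((⊤ : ℕ∞) : WithTop ℕ∞) (ycG : (Fin (m + 1) → ℝ) → ℝ) := by
  unfold ycG
  exact contDiff_apply ℝ ℝ (Fin.last m)

/-- Smoothness on the whole space (`|x'|²/2 ≥ 0` lies in the open set where `Ψ` is smooth and
positive, and `Y² + 2 Ψ² > 0`). -/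
theorem contDiff_entH {ε : ℝ} (hε : 0 < ε) {Ψ : ℝ → ℝ}
    (hΨ : ContDiffOn ℝ ((⊤ : ℕ∞) : WithTop ℕ∞) Ψ (Set.Ioi (-ε)))
    (hpos : ∀ s ∈ Set.Ioi (-ε), 0 < Ψ s) {m : ℕ} :
    ContDiff ℝ ((⊤ : ℕ∞) : WithTop ℕ∞) (entH Ψ (m := m)) := by
  have hmem : ∀ x : Fin (m + 1) → ℝ, sqG x ∈ Set.Ioi (-ε) := fun x =>
    Set.mem_Ioi.mpr (lt_of_lt_of_le (by linarith) (sqG_nonneg x))
  have hΨc : ContDiff ℝ ((⊤ : ℕ∞) : WithTop ℕ∞) (fun x : Fin (m + 1) → ℝ => Ψ (sqG x)) :=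
    hΨ.comp_contDiff emisc_contDiff_sqG hmem
  have hT : ContDiff ℝ ((⊤ : ℕ∞) : WithTop ℕ∞)
      (fun x : Fin (m + 1) → ℝ => ycG x ^ 2 + 2 * Ψ (sqG x) ^ 2) :=
    (emisc_contDiff_ycG.pow 2).add (contDiff_const.mul (hΨc.pow 2))
  have hne : ∀ x : Fin (m + 1) → ℝ, ycG x ^ 2 + 2 * Ψ (sqG x) ^ 2 ≠ 0 := by
    intro x
    have h1 : 0 < Ψ (sqG x) := hpos _ (hmem x)
    have h2 : 0 ≤ ycG x ^ 2 := sq_nonneg _
    have h3 : 0 < Ψ (sqG x) ^ 2 := pow_pos h1 2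
    linarith
  exact hT.sqrt hne

/-- the value of `entH` on the last coordinate axis -/
lemma emisc_axis {m : ℕ} (Ψ : ℝ → ℝ) (t : ℝ) :
    entH Ψ (t • (Pi.single (Fin.last m) (1 : ℝ) : Fin (m + 1) → ℝ))
      = Real.sqrt (t ^ 2 + 2 * Ψ 0 ^ 2) := by
  have h1 : sqG (t • (Pi.single (Fin.last m) (1 : ℝ) : Fin (m + 1) → ℝ)) = 0 := by
    unfold sqG
    have h : ∀ i : Fin m,
        (t • (Pi.single (Fin.last m) (1 : ℝ) : Fin (m + 1) → ℝ)) (Fin.castSucc i) ^ 2 = 0 := by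
      intro i
      rw [Pi.smul_apply, Pi.single_apply, if_neg (Fin.castSucc_ne_last i), smul_zero]
      ring
    rw [Finset.sum_congr rfl fun i _ => h i]
    simp
  have h2 : ycG (t • (Pi.single (Fin.last m) (1 : ℝ) : Fin (m + 1) → ℝ)) = t := by
    unfold ycG
    rw [Pi.smul_apply, Pi.single_apply, if_pos rfl, smul_eq_mul, mul_one]
  unfold entH entT
  rw [h1, h2]

/-- the value of a quadratic polynomial on the last coordinate axis -/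
lemma emisc_quad {m : ℕ} (A : Matrix (Fin (m + 1)) (Fin (m + 1)) ℝ) (b : Fin (m + 1) → ℝ)
    (t : ℝ) :
    (t • (Pi.single (Fin.last m) (1 : ℝ) : Fin (m + 1) → ℝ)) ⬝ᵥ
        A.mulVec (t • (Pi.single (Fin.last m) (1 : ℝ) : Fin (m + 1) → ℝ))
      + b ⬝ᵥ (t • (Pi.single (Fin.last m) (1 : ℝ) : Fin (m + 1) → ℝ))
      = A (Fin.last m) (Fin.last m) * t ^ 2 + b (Fin.last m) * t := by
  rw [Matrix.mulVec_smul, smul_dotProduct, dotProduct_smul, dotProduct_smul,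
    Matrix.mulVec_single_one, single_one_dotProduct, dotProduct_single_one]
  simp only [smul_eq_mul, Matrix.col_apply]
  ring

/-- `h` is not a polynomial of degree at most two: on the axis `x' = 0` it equals
`sqrt (Y² + 2 Ψ(0)²)`. -/
theorem entH_not_quadratic {m : ℕ} (Ψ : ℝ → ℝ) (h0 : 0 < Ψ 0) :
    ¬ ∃ (A : Matrix (Fin (m + 1)) (Fin (m + 1)) ℝ) (b : Fin (m + 1) → ℝ) (c : ℝ),
      ∀ x, entH Ψ x = x ⬝ᵥ A.mulVec x + b ⬝ᵥ x + c := by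
  rintro ⟨A, b, c, hq⟩
  have key : ∀ t : ℝ, Real.sqrt (t ^ 2 + 2 * Ψ 0 ^ 2)
      = A (Fin.last m) (Fin.last m) * t ^ 2 + b (Fin.last m) * t + c := by
    intro t
    rw [← emisc_axis Ψ t, hq, emisc_quad A b t]
  have hc0 : 0 < 2 * Ψ 0 ^ 2 := by positivity
  generalize 2 * Ψ 0 ^ 2 = c0 at key hc0
  generalize A (Fin.last m) (Fin.last m) = a at key
  generalize b (Fin.last m) = b0 at key
  have k0 := key 0
  have k1 := key 1
  have k2 := key (-1)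
  have k3 := key 2
  have hu : Real.sqrt ((0 : ℝ) ^ 2 + c0) ^ 2 = 0 ^ 2 + c0 := Real.sq_sqrt (by positivity)
  have hv : Real.sqrt ((1 : ℝ) ^ 2 + c0) ^ 2 = 1 ^ 2 + c0 := Real.sq_sqrt (by positivity)
  have hw : Real.sqrt ((2 : ℝ) ^ 2 + c0) ^ 2 = 2 ^ 2 + c0 := Real.sq_sqrt (by positivity)
  have e1 : ((-1 : ℝ)) ^ 2 = 1 ^ 2 := by norm_num
  rw [e1] at k2
  generalize Real.sqrt ((0 : ℝ) ^ 2 + c0) = u at k0 hu
  generalize Real.sqrt ((1 : ℝ) ^ 2 + c0) = v at k1 k2 hv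
  generalize Real.sqrt ((2 : ℝ) ^ 2 + c0) = w at k3 hw
  have hw' : w = 4 * v - 3 * u := by linarith
  rw [hw'] at hw
  have e2 : (4 * v - 3 * u) ^ 2 = 16 * v ^ 2 - 24 * (u * v) + 9 * u ^ 2 := by ring
  have huv : u * v = 1 / 2 + c0 := by linarith
  have huv2 : (u * v) ^ 2 = c0 * (1 + c0) := by
    rw [mul_pow, hu, hv]
    ring
  rw [huv] at huv2
  nlinarith

end Vale.Agent.H69.Ent
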