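import Mathlib
import Vale.Agent.H68.AMDefs
import Vale.Agent.H68.P252.BMatDefs
import Vale.Agent.H68.P252.DefsG
import Vale.Agent.H68.P252.DefsGA
import Vale.Agent.H69.P252E.Calc
import Vale.Agent.H69.P252E.Rad
import Vale.Agent.H69.P252E.OneVar
import Vale.Agent.H69.P252E.EntDefs
import Vale.Agent.H69.P252E.EntHess

/-! ROW E-W: the Hessian of `ω = G(s) h^(k+4)`, `G = (V/Ψ)^(k+4)`, where
`h (x', Y) = sqrt (Y² + 2 Ψ(|x'|²/2)²)` is the entire function. -/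

namespace Vale.Agent.H69.Ent

open Vale.Agent.H68 Vale.Agent.H68.Prof

variable {k : ℕ} {ε : ℝ} {Ψ V : ℝ → ℝ}

theorem ew_mem (hε : 0 < ε) {m : ℕ} (x : Fin (m + 1) → ℝ) : sqG x ∈ Set.Ioi (-ε) := by
  have h0 := sqG_nonneg x
  simp only [Set.mem_Ioi]
  linarith

/-- Gradient and Hessian of `g = G ∘ s`, `G = (V/Ψ)^(k+4)`. -/
theorem ew_radAt_g (hε : 0 < ε) (h : IsProfileG k Ψ V (Set.Ioi (-ε))) {m : ℕ}
    (x : Fin (m + 1) → ℝ) :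
    RadAt (fun z : Fin (m + 1) → ℝ => (V (sqG z) / Ψ (sqG z)) ^ (k + 4)) x
      (deriv (fun t => (V t / Ψ t) ^ (k + 4)) (sqG x)) 0
      (deriv (fun t => (V t / Ψ t) ^ (k + 4)) (sqG x))
      (deriv (deriv (fun t => (V t / Ψ t) ^ (k + 4))) (sqG x)) 0 0 := by
  have hs := ew_mem hε x
  have hΨ := h.smoothΨ.contDiffAt (Ioi_mem_nhds hs)
  have hV := h.smoothV.contDiffAt (Ioi_mem_nhds hs)
  have hc := gfun_c2 k hΨ hV (h.posΨ _ hs)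
  have h1 := (radAt_sqG x).comp (φ := fun t => (V t / Ψ t) ^ (k + 4)) hc
  exact h1.congr (by ring) (by ring) (by ring) (by ring) (by ring) (by ring)

/-- Gradient and Hessian of `η = h^(k+4)`. -/
theorem ew_radAt_eta (hε : 0 < ε) (h : IsProfileG k Ψ V (Set.Ioi (-ε))) {m : ℕ}
    (x : Fin (m + 1) → ℝ) :
    RadAt (fun z : Fin (m + 1) → ℝ => entH Ψ z ^ (k + 4)) x
      (((k : ℝ) + 4) * entH Ψ x ^ (k + 2) * (2 * Ψ (sqG x) * deriv Ψ (sqG x)))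
      (((k : ℝ) + 4) * entH Ψ x ^ (k + 2) * ycG x)
      (((k : ℝ) + 4) * entH Ψ x ^ (k + 2) * (2 * Ψ (sqG x) * deriv Ψ (sqG x)))
      (((k : ℝ) + 4) * entH Ψ x ^ (k + 2)
          * (2 * deriv Ψ (sqG x) ^ 2 + 2 * Ψ (sqG x) * deriv (deriv Ψ) (sqG x))
        + ((k : ℝ) + 4) * ((k : ℝ) + 2) * entH Ψ x ^ k
          * (2 * Ψ (sqG x) * deriv Ψ (sqG x)) ^ 2)
      (((k : ℝ) + 4) * ((k : ℝ) + 2) * entH Ψ x ^ k * ycG x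
        * (2 * Ψ (sqG x) * deriv Ψ (sqG x)))
      (((k : ℝ) + 4) * entH Ψ x ^ k * (entH Ψ x ^ 2 + ((k : ℝ) + 2) * ycG x ^ 2)) := by
  have hpos := entH_pos hε h x
  have hsq := entH_sq hε h x
  have hne : entH Ψ x ≠ 0 := hpos.ne'
  have h1 := (radAt_entH hε h x).comp (φ := fun u : ℝ => u ^ (k + 4)) (pow_c2 (k + 4) _)
  have d1 : deriv (fun u : ℝ => u ^ (k + 4)) (entH Ψ x)
      = ((k : ℝ) + 4) * entH Ψ x ^ (k + 3) := by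
    refine (deriv_pow_succ (k + 3) (entH Ψ x)).trans ?_
    push_cast
    ring
  have d2 : deriv (deriv (fun u : ℝ => u ^ (k + 4))) (entH Ψ x)
      = ((k : ℝ) + 4) * ((k : ℝ) + 3) * entH Ψ x ^ (k + 2) := by
    refine (deriv2_pow_succ (k + 2) (entH Ψ x)).trans ?_
    push_cast
    ring
  rw [d1, d2] at h1
  have e2 : 2 * Ψ (sqG x) ^ 2 = entH Ψ x ^ 2 - ycG x ^ 2 := by linarith
  rw [e2] at h1
  refine h1.congr ?_ ?_ ?_ ?_ ?_ ?_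
  · field_simp
    ring
  · field_simp
    ring
  · field_simp
    ring
  · field_simp
    ring
  · field_simp
    ring
  · field_simp
    ring

theorem contDiffAt_entW (hε : 0 < ε) (h : IsProfileG k Ψ V (Set.Ioi (-ε)))
    (x : Fin (k + 2 + 1) → ℝ) : ContDiffAt ℝ 2 (entW k Ψ V) x := by
  have hg := ew_radAt_g hε h x
  have hη := ew_radAt_eta hε h x
  exact (hg.mul hη).smooth

/-- `D²ω = bmat x' ω_s ω_ss ω_sY ω_YY` with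
`ω_s = h^(N-2) (G' h² + N G Φ')`,
`ω_ss = h^(N-4) (G'' h⁴ + 2 N G' h² Φ' + N G ((N-2) Φ'² + h² Φ''))`,
`ω_sY = N Y h^(N-4) (G' h² + (N-2) G Φ')`, `ω_YY = N G h^(N-4) (h² + (N-2) Y²)`,
where `N = k + 4`, `Φ = Ψ²`. -/
theorem hess_entW (hε : 0 < ε) (h : IsProfileG k Ψ V (Set.Ioi (-ε)))
    (x : Fin (k + 2 + 1) → ℝ)
    (s Y hh Ps P P₂ Vs V₁ V₂ Φ₁ Φ₂ G G₁ G₂ : ℝ)
    (hs : s = sqG x) (hY : Y = ycG x) (hhh : hh = entH Ψ x)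
    (hPs : Ps = Ψ s) (hP : P = deriv Ψ s) (hP₂ : P₂ = deriv (deriv Ψ) s)
    (hVs : Vs = V s) (hV₁ : V₁ = deriv V s) (hV₂ : V₂ = deriv (deriv V) s)
    (hΦ₁ : Φ₁ = 2 * Ps * P) (hΦ₂ : Φ₂ = 2 * P ^ 2 + 2 * Ps * P₂)
    (hG : G = (Vs / Ps) ^ (k + 4))
    (hG₁ : G₁ = ((k : ℝ) + 4) * (Vs / Ps) ^ (k + 3) * ((V₁ * Ps - Vs * P) / Ps ^ 2))
    (hG₂ : G₂ = ((k : ℝ) + 4) * ((k : ℝ) + 3) * (Vs / Ps) ^ (k + 2)
          * ((V₁ * Ps - Vs * P) / Ps ^ 2) ^ 2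
        + ((k : ℝ) + 4) * (Vs / Ps) ^ (k + 3)
          * ((V₂ * Ps - Vs * P₂) / Ps ^ 2 - 2 * P * (V₁ * Ps - Vs * P) / Ps ^ 3)) :
    hess (entW k Ψ V) x = bmat (xpG x)
      (hh ^ (k + 2) * (G₁ * hh ^ 2 + ((k : ℝ) + 4) * G * Φ₁))
      (hh ^ k * (G₂ * hh ^ 4 + 2 * ((k : ℝ) + 4) * G₁ * hh ^ 2 * Φ₁
        + ((k : ℝ) + 4) * G * (((k : ℝ) + 2) * Φ₁ ^ 2 + hh ^ 2 * Φ₂)))
      (((k : ℝ) + 4) * Y * hh ^ k * (G₁ * hh ^ 2 + ((k : ℝ) + 2) * G * Φ₁))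
      (((k : ℝ) + 4) * G * hh ^ k * (hh ^ 2 + ((k : ℝ) + 2) * Y ^ 2)) := by
  subst hs hY hhh hPs hP hP₂ hVs hV₁ hV₂ hΦ₁ hΦ₂
  have hsm := ew_mem hε x
  have hΨ := h.smoothΨ.contDiffAt (Ioi_mem_nhds hsm)
  have hV := h.smoothV.contDiffAt (Ioi_mem_nhds hsm)
  have hpos := h.posΨ _ hsm
  have hG₁' : deriv (fun t => (V t / Ψ t) ^ (k + 4)) (sqG x) = G₁ := by
    rw [hG₁]
    exact gfun_deriv k hΨ hV hpos
  have hG₂' : deriv (deriv (fun t => (V t / Ψ t) ^ (k + 4))) (sqG x) = G₂ := by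
    rw [hG₂]
    exact gfun_deriv2 k hΨ hV hpos
  have hg := ew_radAt_g hε h x
  rw [hG₁', hG₂'] at hg
  have hη := ew_radAt_eta hε h x
  have hmul := (hg.mul hη).hess_eq
  rw [← hG] at hmul
  have hfun : entW k Ψ V
      = fun z => (V (sqG z) / Ψ (sqG z)) ^ (k + 4) * entH Ψ z ^ (k + 4) := rfl
  rw [hfun, hmul]
  congr 1 <;> ring

end Vale.Agent.H69.Ent
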