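import Mathlib
import Vale.Agent.H68.AMDefs
import Vale.Agent.H68.P252.BMatDefs
import Vale.Agent.H68.P252.BMatInv
import Vale.Agent.H68.P252.DefsG
import Vale.Agent.H68.P252.DefsGA
import Vale.Agent.H69.P252E.Calc
import Vale.Agent.H69.P252E.Rad
import Vale.Agent.H69.P252E.ScalE
import Vale.Agent.H69.P252E.BracketE
import Vale.Agent.H69.P252E.EntDefs
import Vale.Agent.H69.P252E.EntHess
import Vale.Agent.H69.P252E.EntDet
import Vale.Agent.H69.P252E.EntAmW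
import Vale.Agent.H69.P252E.EntW
import Vale.Agent.H69.P252E.EntMisc

/-! # The entire-graph form of the P252 counterexample: assembly

For a profile `(Ψ, V)` (a smooth positive solution of the two profile equations `Eq1G k`,
`Eq2G k` on an open interval containing `[0, ∞)`), the function
`h (x', Y) = sqrt (Y² + 2 Ψ(|x'|²/2)²)` on all of `ℝ^(k+2) × ℝ` is smooth, has positive definite
Hessian everywhere, solves the affine maximal equation everywhere, and is not a polynomial of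
degree at most two. -/

namespace Vale.Agent.H69.Ent

open Vale.Agent.H68 Vale.Agent.H68.Prof

variable {k : ℕ} {ε : ℝ} {Ψ V : ℝ → ℝ}

/-- The affine maximal operator of the entire function vanishes everywhere. -/
theorem amOp_entH (hε : 0 < ε) (h : IsProfileG k Ψ V (Set.Ioi (-ε)))
    (x : Fin (k + 2 + 1) → ℝ) : amOp (entH Ψ) x = 0 := by
  have hs : sqG x ∈ Set.Ioi (-ε) := by
    have := sqG_nonneg x
    simp only [Set.mem_Ioi]
    linarith
  have hhpos : 0 < entH Ψ x := entH_pos hε h x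
  have hT : entH Ψ x ^ 2 = ycG x ^ 2 + 2 * Ψ (sqG x) ^ 2 := entH_sq hε h x
  have hΨ := h.posΨ _ hs
  have hP := h.posD _ hs
  have hV := h.posV _ hs
  have h1 := h.eq1 _ hs
  have h2 := h.eq2 _ hs
  unfold Eq1G at h1
  unfold Eq2G at h2
  have hR := profile_R_pos hε h hs
  have hrad := radAt_entH hε h x
  have hq := sum_xpG_sq x
  -- the entries of the Hessian of `h`
  obtain ⟨α, hα⟩ : ∃ α : ℝ, α = (2 * Ψ (sqG x) * deriv Ψ (sqG x)) / entH Ψ x := ⟨_, rfl⟩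
  obtain ⟨β, hβ⟩ : ∃ β : ℝ, β = (2 * deriv Ψ (sqG x) ^ 2
      + 2 * Ψ (sqG x) * deriv (deriv Ψ) (sqG x)) / entH Ψ x
        - (2 * Ψ (sqG x) * deriv Ψ (sqG x)) ^ 2 / entH Ψ x ^ 3 := ⟨_, rfl⟩
  obtain ⟨b, hb⟩ : ∃ b : ℝ, b = -(ycG x * (2 * Ψ (sqG x) * deriv Ψ (sqG x))) / entH Ψ x ^ 3 :=
    ⟨_, rfl⟩
  obtain ⟨c, hc⟩ : ∃ c : ℝ, c = 2 * Ψ (sqG x) ^ 2 / entH Ψ x ^ 3 := ⟨_, rfl⟩
  have hhess : hess (entH Ψ) x = bmat (xpG x) α β b c := by
    rw [hα, hβ, hb, hc]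
    exact hrad.hess_eq
  have hαpos : 0 < α := by
    rw [hα]
    positivity
  have hΔeq : (α + β * (2 * sqG x)) * c - b ^ 2 * (2 * sqG x)
      = 4 * Ψ (sqG x) ^ 3 * (deriv Ψ (sqG x) + 2 * sqG x * deriv (deriv Ψ) (sqG x))
        / entH Ψ x ^ 4 := by
    rw [hα, hβ, hb, hc]
    exact scalE_delta (sqG x) (ycG x) (entH Ψ x) (Ψ (sqG x)) (deriv Ψ (sqG x))
      (deriv (deriv Ψ) (sqG x)) hhpos hT
  have hΔpos : 0 < (α + β * (2 * sqG x)) * c - b ^ 2 * (2 * sqG x) := by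
    rw [hΔeq]
    positivity
  -- the function `w`
  obtain ⟨c0, hc0⟩ : ∃ c0 : ℝ, c0 = ((2 : ℝ) ^ (k + 3)) ^ (-((k : ℝ) + 4) / ((k : ℝ) + 5)) :=
    ⟨_, rfl⟩
  have hamW : amW (entH Ψ (m := k + 2)) = fun z => c0 * entW k Ψ V z := by
    rw [hc0]
    exact amW_entH hε h
  have hWsm := contDiffAt_entW hε h x
  have hWhess := hess_entW hε h x (sqG x) (ycG x) (entH Ψ x) (Ψ (sqG x)) (deriv Ψ (sqG x))
    (deriv (deriv Ψ) (sqG x)) (V (sqG x)) (deriv V (sqG x)) (deriv (deriv V) (sqG x))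
    _ _ _ _ _ rfl rfl rfl rfl rfl rfl rfl rfl rfl rfl rfl rfl rfl rfl
  have hpd : ∀ i j, pd i (pd j (fun z => c0 * entW k Ψ V z)) x
      = c0 * hess (entW k Ψ V) x i j := by
    intro i j
    have e1 := hess_const_mul c0 hWsm
    have e2 := congrFun (congrFun e1 i) j
    simpa [hess] using e2
  unfold amOp
  rw [hamW]
  simp only [hpd]
  rw [hhess, hWhess, bmat_inv _ _ _ _ _ hαpos.ne' (by rw [hq]; exact hΔpos.ne')]
  simp only [Matrix.smul_apply, smul_eq_mul]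
  have hre : ∀ (D : ℝ) (M M' : Matrix (Fin (k + 2 + 1)) (Fin (k + 2 + 1)) ℝ),
      ∑ i, ∑ j, D * M i j * (c0 * M' i j) = D * c0 * ∑ i, ∑ j, M i j * M' i j := by
    intro D M M'
    simp only [Finset.mul_sum]
    refine Finset.sum_congr rfl fun i _ => Finset.sum_congr rfl fun j _ => ?_
    ring
  rw [hre, bmat_sum_mul, hq]
  have key := scalE_bracket k (sqG x) (ycG x) (entH Ψ x) (Ψ (sqG x)) (deriv Ψ (sqG x))
    (deriv (deriv Ψ) (sqG x)) (V (sqG x)) (deriv V (sqG x)) (deriv (deriv V) (sqG x))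
    hhpos hT hΨ hP hV h1 h2
    (Ψ (sqG x) ^ 2) (2 * Ψ (sqG x) * deriv Ψ (sqG x))
    (2 * deriv Ψ (sqG x) ^ 2 + 2 * Ψ (sqG x) * deriv (deriv Ψ) (sqG x))
    _ _ _ α β b c (2 * sqG x) _ _ _ _ _ _ _ _ _
    rfl rfl rfl rfl rfl rfl hα hβ hb (by rw [hc]) rfl rfl rfl rfl rfl rfl rfl rfl rfl rfl
  have hcast : ((k + 2 : ℕ) : ℝ) = (k : ℝ) + 2 := by push_cast; ring
  rw [hcast, key, mul_zero]

/-- **From a profile to an entire non-quadratic solution of the affine maximal equation.** -/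
theorem entire_of_profileG (k : ℕ) {ε : ℝ} (hε : 0 < ε) {Ψ V : ℝ → ℝ}
    (h : IsProfileG k Ψ V (Set.Ioi (-ε))) : EntireAt (k + 3) :=
  ⟨entH Ψ (m := k + 2), contDiff_entH hε h.smoothΨ h.posΨ,
    fun x => posDef_hess_entH hε h x, fun x => amOp_entH hε h x,
    entH_not_quadratic Ψ (h.posΨ 0 (by simp only [Set.mem_Ioi]; linarith))⟩

end Vale.Agent.H69.Ent
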