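import Mathlib
import Vale.Agent.H68.AMDefs
import Vale.Agent.H68.P252.DefsG
import Vale.Agent.H68.P252.LocalG
import Vale.Agent.H68.P252.GlobalW
import Vale.Agent.H69.P252E.EntDefs
import Vale.Agent.H69.P252E.EntMain

/-! # Entire non-quadratic solutions of the affine maximal equation in every dimension `n ≥ 10`

The profile `(Ψ, V)` exists on an open interval containing `[0, ∞)` for every `k ≥ 7`
(`local_profileG`, `extend_profileG_ge_seven`), and `entire_of_profileG` turns it into the entire
function `h (x', Y) = sqrt (Y² + 2 Ψ(|x'|²/2)²)` on `ℝ^(k+3)`. -/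

namespace Vale.Agent.H69.Ent

open Vale.Agent.H68 Vale.Agent.H68.Prof

/-- In every dimension `n ≥ 10` there is a smooth function on all of `ℝ^n` with positive definite
Hessian everywhere that solves the affine maximal equation everywhere and is not a polynomial of
degree at most two. -/
theorem entire_all (n : ℕ) (hn : 10 ≤ n) : EntireAt n := by
  obtain ⟨k, rfl⟩ : ∃ k, n = k + 3 := ⟨n - 3, by omega⟩
  obtain ⟨δ, hδ, Ψ, V, h⟩ := local_profileG k
  obtain ⟨Ψg, Vg, hg⟩ := extend_profileG_ge_seven k (by omega) hδ h
  exact entire_of_profileG k hδ hg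

end Vale.Agent.H69.Ent
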